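import Mathlib

/-! The norm ultrapower of a unital C*-algebra. -/

namespace Vale.Agent.P083
open Filter Topology
open scoped ENNReal

universe u

variable (ω : Ultrafilter ℕ) (B : Type u) [CStarAlgebra B] [Nontrivial B]

/-- norm-bounded sequences in `B` -/
def Linf : Type u := lp (fun _ : ℕ => B) ∞

noncomputable instance linfRing : Ring (Linf B) := lp.inftyRing
noncomputable instance linfAlgebra : Algebra ℂ (Linf B) :=
  lp.instAlgebraSubtypePreLpMemAddSubgroupTopENNReal
noncomputable instance linfStarRing : StarRing (Linf B) := lp.inftyStarRing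

variable {B}

/-- the underlying sequence -/
def Linf.seq (x : Linf B) : ℕ → B := Subtype.val x

/-- the norms tend to zero along the ultrafilter -/
def IsNull (x : Linf B) : Prop := Tendsto (fun n => ‖x.seq n‖) ω (𝓝 0)

omit [Nontrivial B] in
lemma Linf.bdd (c : Linf B) : ∃ C, ∀ n, ‖c.seq n‖ ≤ C :=
  ⟨_, lp.norm_apply_le_norm ENNReal.top_ne_zero (c : lp (fun _ : ℕ => B) ∞)⟩

lemma null_add {x y : Linf B} (hx : IsNull ω x) (hy : IsNull ω y) : IsNull ω (x + y) :=
  squeeze_zero (fun _ => norm_nonneg _) (fun n => norm_add_le (x.seq n) (y.seq n))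
    (by simpa using Tendsto.add hx hy)

lemma null_zero : IsNull ω (0 : Linf B) := (tendsto_const_nhds (x := 0)).congr (fun _ => norm_zero.symm)

lemma null_mul_left (c : Linf B) {x : Linf B} (hx : IsNull ω x) : IsNull ω (c * x) := by
  obtain ⟨C, hC⟩ := c.bdd
  exact squeeze_zero (fun _ => norm_nonneg _) (fun n => norm_mul_le_of_le (hC n) (le_refl ‖x.seq n‖))
    (by simpa using Tendsto.const_mul C hx)

lemma null_mul_right {x : Linf B} (c : Linf B) (hx : IsNull ω x) : IsNull ω (x * c) := by
  obtain ⟨C, hC⟩ := c.bdd
  exact squeeze_zero (fun _ => norm_nonneg _) (fun n => norm_mul_le_of_le (le_refl ‖x.seq n‖) (hC n))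
    (by simpa using Tendsto.mul_const C hx)

lemma null_star {x : Linf B} (hx : IsNull ω x) : IsNull ω (star x) :=
  Tendsto.congr (fun n => (norm_star (x.seq n)).symm) hx

variable (B)

/-- the ideal of null sequences -/
def nullIdeal : Ideal (Linf B) where
  carrier := {x | IsNull ω x}
  add_mem' := null_add ω
  zero_mem' := null_zero ω
  smul_mem' := null_mul_left ω

instance nullIdeal_twoSided : (nullIdeal ω B).IsTwoSided := ⟨null_mul_right ω⟩

/-- the norm ultrapower: bounded sequences modulo null sequences -/
abbrev UltraPower : Type u := Linf B ⧸ nullIdeal ω B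

lemma star_rel {R : Type u} [Ring R] [StarRing R] (I : Ideal R) (hI : ∀ x ∈ I, star x ∈ I)
    (x y : R) (h : I.quotientRel x y) : I.quotientRel (star x) (star y) := by
  rw [Submodule.quotientRel_def] at h ⊢
  rw [← star_sub]
  exact hI _ h

/-- the involution induced on the quotient by a self-adjoint ideal -/
abbrev quotStar {R : Type u} [Ring R] [StarRing R] (I : Ideal R) (hI : ∀ x ∈ I, star x ∈ I) :
    Star (R ⧸ I) := ⟨Quotient.map' star (star_rel I hI)⟩

/-- the involution of the ultrapower, induced by the coordinatewise involution -/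
noncomputable instance ultraStar : Star (UltraPower ω B) :=
  quotStar (nullIdeal ω B) (fun _ => null_star ω)

end Vale.Agent.P083
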