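import Mathlib

/-! Spectral gap for four one-parameter groups over `ZMod 17` with Heisenberg relations. -/

namespace Vale.Agent.P083
open Finset
open scoped InnerProductSpace

abbrev F := ZMod 17

instance : Fact (Nat.Prime 17) := ⟨by norm_num⟩

variable {V : Type*} [NormedAddCommGroup V] [InnerProductSpace ℂ V]

structure Fam (a : F → V →L[ℂ] V) : Prop where
  zero : a 0 = 1
  add : ∀ s t, a (s + t) = a s * a t
  iso : ∀ t x, ‖a t x‖ = ‖x‖

noncomputable def avg (a : F → V →L[ℂ] V) : V →L[ℂ] V := (1 / 17 : ℂ) • ∑ t, a t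

structure Proj (P : V →L[ℂ] V) : Prop where
  idem : P * P = P
  symm : ∀ x y, ⟪P x, y⟫_ℂ = ⟪x, P y⟫_ℂ

lemma Fam.inner_map {a : F → V →L[ℂ] V} (h : Fam a) (t : F) (x y : V) :
    ⟪a t x, a t y⟫_ℂ = ⟪x, y⟫_ℂ :=
  (LinearMap.norm_map_iff_inner_map_map (a t)).1 (h.iso t) x y

lemma Fam.inner_left {a : F → V →L[ℂ] V} (h : Fam a) (t : F) (x y : V) :
    ⟪a t x, y⟫_ℂ = ⟪x, a (-t) y⟫_ℂ := by
  rw [← h.inner_map t x, ← mul_apply_eq_comp, ← h.add, add_neg_cancel, h.zero]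
  rfl

lemma Fam.mul_avg {a : F → V →L[ℂ] V} (h : Fam a) (t : F) : a t * avg a = avg a := by
  unfold avg
  rw [mul_smul_comm, mul_sum]
  congr 1
  simp only [← h.add]
  exact Equiv.sum_comp (Equiv.addLeft t) a

lemma Fam.avg_mul {a : F → V →L[ℂ] V} (h : Fam a) (t : F) : avg a * a t = avg a := by
  unfold avg
  rw [smul_mul_assoc, sum_mul]
  congr 1
  simp only [← h.add]
  exact Equiv.sum_comp (Equiv.addRight t) a

lemma avg_mul_of {a : F → V →L[ℂ] V} {x y : V →L[ℂ] V} (h : ∀ t, a t * x = y) : avg a * x = y := by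
  unfold avg
  rw [smul_mul_assoc, sum_mul]
  simp only [h, sum_const, card_univ, ZMod.card]
  rw [← Nat.cast_smul_eq_nsmul ℂ, smul_smul]
  norm_num

lemma commute_avg {a : F → V →L[ℂ] V} {x : V →L[ℂ] V} (h : ∀ t, Commute x (a t)) :
    Commute x (avg a) :=
  (Commute.sum_right _ _ _ (fun t _ => h t)).smul_right _

lemma Fam.proj {a : F → V →L[ℂ] V} (h : Fam a) : Proj (avg a) where
  idem := avg_mul_of h.mul_avg
  symm := by
    intro x y
    simp only [avg, smul_apply, _root_.sum_apply,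
      inner_smul_left, inner_smul_right, sum_inner, inner_sum, h.inner_left]
    congr 1
    · simp [map_ofNat]
    · exact Equiv.sum_comp (Equiv.neg F) (fun t => ⟪x, a t y⟫_ℂ)

lemma Proj.compl {P : V →L[ℂ] V} (h : Proj P) : Proj (1 - P) where
  idem := by rw [sub_mul, mul_sub, mul_sub, h.idem]; simp
  symm := by
    intro x y
    simp only [sub_apply, one_apply_eq_self, inner_sub_left, inner_sub_right, h.symm]

lemma Proj.apply_apply {P : V →L[ℂ] V} (h : Proj P) (x : V) : P (P x) = P x := by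
  rw [← mul_apply_eq_comp, h.idem]

lemma Proj.inner_both {P : V →L[ℂ] V} (h : Proj P) (x y : V) : ⟪P x, P y⟫_ℂ = ⟪x, P y⟫_ℂ := by
  rw [h.symm, h.apply_apply]

lemma Proj.norm_sq {P : V →L[ℂ] V} (h : Proj P) (x : V) : ‖P x‖ ^ 2 = (⟪x, P x⟫_ℂ).re := by
  rw [← h.inner_both, inner_self_eq_norm_sq_to_K]
  norm_cast

lemma Proj.split {P : V →L[ℂ] V} (h : Proj P) (x y : V) :
    ⟪x, y⟫_ℂ = ⟪P x, P y⟫_ℂ + ⟪(1 - P) x, (1 - P) y⟫_ℂ := by
  rw [h.inner_both, h.compl.inner_both, ← inner_add_right]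
  simp

lemma re_inner_self (x : V) : (⟪x, x⟫_ℂ).re = ‖x‖ ^ 2 := by
  rw [inner_self_eq_norm_sq_to_K]; norm_cast

lemma norm_sub_sq' (x y : V) : ‖x - y‖ ^ 2 = ‖x‖ ^ 2 - 2 * (⟪x, y⟫_ℂ).re + ‖y‖ ^ 2 :=
  norm_sub_sq (𝕜 := ℂ) x y

lemma norm_add_sq' (x y : V) : ‖x + y‖ ^ 2 = ‖x‖ ^ 2 + 2 * (⟪x, y⟫_ℂ).re + ‖y‖ ^ 2 :=
  norm_add_sq (𝕜 := ℂ) x y

lemma re_inner_comm (x y : V) : (⟪x, y⟫_ℂ).re = (⟪y, x⟫_ℂ).re := inner_re_symm (𝕜 := ℂ) x y

lemma re_inner_le (x y : V) : (⟪x, y⟫_ℂ).re ≤ ‖x‖ * ‖y‖ := re_inner_le_norm (𝕜 := ℂ) x y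

lemma Proj.norm_le {P : V →L[ℂ] V} (h : Proj P) (x : V) : ‖P x‖ ^ 2 ≤ ‖x‖ ^ 2 := by
  have := congrArg Complex.re (h.split x x)
  simp only [Complex.add_re, re_inner_self] at this
  nlinarith [sq_nonneg ‖(1 - P) x‖]

lemma pair_angle {P P' : V →L[ℂ] V} (hP : Proj P) (hP' : Proj P') (x : V)
    (h : P' (P (P' x)) = (1 / 17 : ℂ) • P' x) :
    0 ≤ 2 * (⟪(1 - P) x, (1 - P') x⟫_ℂ).re + 1 / 4 * (‖(1 - P) x‖ ^ 2 + ‖(1 - P') x‖ ^ 2) := by
  have h1 : ‖P (P' x)‖ ^ 2 = 1 / 17 * ‖P' x‖ ^ 2 := by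
    rw [hP.norm_sq, hP'.symm, h, inner_smul_right, hP'.norm_sq]
    simp
  have h2 : (⟪P x, P' x⟫_ℂ).re ≤ ‖P x‖ * ‖P (P' x)‖ := by
    rw [hP.symm, ← hP.inner_both]; exact re_inner_le _ _
  have h3 := hP.norm_sq x
  have h4 := hP'.norm_sq x
  have h5 : 0 ≤ ‖x - (4 / 5 : ℂ) • (P x + P' x)‖ ^ 2 := sq_nonneg _
  rw [norm_sub_sq', norm_smul, mul_pow, norm_add_sq', inner_smul_right, inner_add_right] at h5
  have e : ‖(4 / 5 : ℂ)‖ = 4 / 5 := by simp
  rw [e] at h5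
  simp only [sub_apply, one_apply_eq_self, norm_sub_sq',
    inner_sub_left, inner_sub_right, Complex.sub_re, re_inner_self, re_inner_comm (P x) x]
  have e2 : ((4 / 5 : ℂ) * (⟪x, P x⟫_ℂ + ⟪x, P' x⟫_ℂ)).re =
      4 / 5 * ((⟪x, P x⟫_ℂ).re + (⟪x, P' x⟫_ℂ).re) := by
    rw [show (4 / 5 : ℂ) = ((4 / 5 : ℝ) : ℂ) by push_cast; rfl, Complex.re_ofReal_mul,
      Complex.add_re]
  rw [e2] at h5
  nlinarith [sq_nonneg (‖P x‖ - 4 * ‖P (P' x)‖), sq_nonneg ‖P' x‖]

lemma pair_proj {P P' E : V →L[ℂ] V} (hP : Proj P) (hP' : Proj P') (hE : Proj E)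
    (c1 : Commute E P) (c2 : Commute E P') (h1 : E * (P * P') = E * (P' * P))
    (h2 : (1 - E) * (P' * P * P') = (1 / 17 : ℂ) • ((1 - E) * P')) (x : V) :
    0 ≤ 2 * (⟪(1 - P) x, (1 - P') x⟫_ℂ).re + 1 / 4 * (‖(1 - P) x‖ ^ 2 + ‖(1 - P') x‖ ^ 2) := by
  have d1 : Commute E (1 - P) := (Commute.one_right E).sub_right c1
  have d2 : Commute E (1 - P') := (Commute.one_right E).sub_right c2
  have f1 : Commute (1 - E) (1 - P) := (Commute.one_left _).sub_left d1
  have f2 : Commute (1 - E) (1 - P') := (Commute.one_left _).sub_left d2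
  have f3 : Commute (1 - E) P := (Commute.one_left _).sub_left c1
  have f4 : Commute (1 - E) P' := (Commute.one_left _).sub_left c2
  have ap : ∀ {A B : V →L[ℂ] V}, Commute A B → ∀ y, A (B y) = B (A y) := fun h y => by
    rw [← mul_apply_eq_comp, h.eq, mul_apply_eq_comp]
  have a1 := pair_angle hP hP' ((1 - E) x) (by
    have := congrArg (fun T : V →L[ℂ] V => T x) h2
    simp only [mul_apply_eq_comp, smul_apply] at this
    rw [ap f4, ap f3, ap f4] at this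
    exact this)
  have a2 : 0 ≤ (⟪(1 - P) (E x), (1 - P') (E x)⟫_ℂ).re := by
    have b1 : E * ((1 - P') * (1 - P)) = E * ((1 - P) * (1 - P')) := by
      simp only [mul_sub, sub_mul, mul_one, one_mul, h1]; abel
    have b2 : (1 - P') ((1 - P) ((1 - P') (E x))) = (1 - P) ((1 - P') (E x)) := by
      have := congrArg (fun T : V →L[ℂ] V => T ((1 - P') x)) b1
      simp only [mul_apply_eq_comp] at this
      rw [ap d2, ap d1, ap d2, ap d1, ap d2, ap d2, hP'.compl.apply_apply] at this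
      exact this
    rw [hP.compl.symm, ← b2, ← hP'.compl.symm, ← hP.compl.inner_both, re_inner_self]
    positivity
  have s1 := congrArg Complex.re (hE.split ((1 - P) x) ((1 - P') x))
  have s2 := congrArg Complex.re (hE.split ((1 - P) x) ((1 - P) x))
  have s3 := congrArg Complex.re (hE.split ((1 - P') x) ((1 - P') x))
  simp only [Complex.add_re, re_inner_self, ap d1, ap d2, ap f1, ap f2] at s1 s2 s3
  rw [s1, s2, s3]
  nlinarith [sq_nonneg ‖(1 - P) (E x)‖, sq_nonneg ‖(1 - P') (E x)‖]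

def Heis (a b : F → V →L[ℂ] V) : Prop :=
  ∃ z : F → V →L[ℂ] V, Fam z ∧ (∀ s t, a s * b t = z (s * t) * (b t * a s)) ∧
    (∀ s t, Commute (z s) (a t)) ∧ ∀ s t, Commute (z s) (b t)

lemma pair_heis {a b : F → V →L[ℂ] V} (ha : Fam a) (hb : Fam b) (h : Heis a b) (x : V) :
    0 ≤ 2 * (⟪(1 - avg b) x, (1 - avg a) x⟫_ℂ).re +
      1 / 4 * (‖(1 - avg b) x‖ ^ 2 + ‖(1 - avg a) x‖ ^ 2) := by
  obtain ⟨z, hz, h1, h2, h3⟩ := h
  have c1 : Commute (avg z) (avg a) :=
    commute_avg (fun t => (commute_avg (fun s => (h2 s t).symm)).symm)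
  have c2 : Commute (avg z) (avg b) :=
    commute_avg (fun t => (commute_avg (fun s => (h3 s t).symm)).symm)
  refine pair_proj hb.proj ha.proj hz.proj c2 c1 ?_ ?_ x
  · have : ∀ s t, avg z * (a s * b t) = avg z * (b t * a s) := fun s t => by
      rw [h1, ← mul_assoc, hz.avg_mul]
    conv_lhs => rw [avg.eq_1 b, avg.eq_1 a]
    conv_rhs => rw [avg.eq_1 b, avg.eq_1 a]
    simp only [smul_mul_assoc, mul_smul_comm, sum_mul, mul_sum, this, ← smul_sum]
    rw [sum_comm]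
  · have k : ∀ t, t ≠ 0 → (1 - avg z) * (avg a * b t * avg a) = 0 := by
      intro t ht
      have k1 : ∀ s, z s * (avg a * b t * avg a) = avg a * b t * avg a := by
        intro s
        have k2 := h1 (s / t) t
        rw [div_mul_cancel₀ _ ht] at k2
        calc _ = avg a * (z s * (b t * a (s / t))) * avg a := by
              rw [mul_assoc (avg a) (z s * _), mul_assoc (z s), mul_assoc (b t), ha.mul_avg,
                ← mul_assoc (avg a) (z s), ← (commute_avg (h2 s)).eq]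
              simp only [mul_assoc]
          _ = _ := by rw [← k2, ← mul_assoc, ha.avg_mul]
      rw [sub_mul, one_mul, avg_mul_of k1, sub_self]
    conv_lhs => rw [avg.eq_1 b]
    rw [mul_smul_comm, smul_mul_assoc, mul_smul_comm, mul_sum, sum_mul, mul_sum,
      sum_eq_single 0 (fun t _ ht => k t ht) (by simp), hb.zero, mul_one, ha.proj.idem]

abbrev Ix := Option (ZMod 3)

structure GapData (g : Ix → F → V →L[ℂ] V) : Prop where
  fam : ∀ i, Fam (g i)
  heis : ∀ i j, i ≠ j → Heis (g i) (g j) ∨ Heis (g j) (g i)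

noncomputable def en (g : Ix → F → V →L[ℂ] V) (x : V) : ℝ := ∑ i, ‖(1 - avg (g i)) x‖ ^ 2

noncomputable def EN (g : Ix → F → V →L[ℂ] V) (x : V) : ℝ := ∑ i, ∑ t, ‖x - g i t x‖ ^ 2

noncomputable def lap (g : Ix → F → V →L[ℂ] V) : V →L[ℂ] V := ∑ i, (1 - avg (g i))

lemma en_nonneg (g : Ix → F → V →L[ℂ] V) (x : V) : 0 ≤ en g x :=
  sum_nonneg (fun _ _ => sq_nonneg _)

variable {g : Ix → F → V →L[ℂ] V}

lemma GapData.EN_eq (h : GapData g) (x : V) : EN g x = 34 * en g x := by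
  unfold EN en
  rw [mul_sum]
  refine sum_congr rfl (fun i _ => ?_)
  rw [(h.fam i).proj.compl.norm_sq]
  simp only [norm_sub_sq', (h.fam i).iso, sum_add_distrib, sum_sub_distrib, sum_const, card_univ,
    ZMod.card, sub_apply, one_apply_eq_self, inner_sub_right,
    Complex.sub_re, re_inner_self, avg, smul_apply,
    _root_.sum_apply, inner_smul_right, inner_sum, ← mul_sum, nsmul_eq_mul]
  rw [show (1 / 17 : ℂ) = ((1 / 17 : ℝ) : ℂ) by push_cast; rfl, Complex.re_ofReal_mul,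
    Complex.re_sum]
  push_cast
  ring

lemma GapData.gap (h : GapData g) (x : V) : 1 / 4 * en g x ≤ ‖lap g x‖ ^ 2 := by
  classical
  rw [← re_inner_self]
  simp only [lap, _root_.sum_apply, sum_inner, inner_sum, Complex.re_sum]
  have key : ∀ i j, -(1 / 8) * (‖(1 - avg (g i)) x‖ ^ 2 + ‖(1 - avg (g j)) x‖ ^ 2) +
      (if i = j then 5 / 4 * ‖(1 - avg (g j)) x‖ ^ 2 else 0) ≤
      (⟪(1 - avg (g i)) x, (1 - avg (g j)) x⟫_ℂ).re := by
    intro i j
    split_ifs with hij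
    · subst hij; rw [re_inner_self]; linarith
    · rcases h.heis i j hij with h1 | h1
      · have := pair_heis (h.fam i) (h.fam j) h1 x
        rw [re_inner_comm]; linarith
      · have := pair_heis (h.fam j) (h.fam i) h1 x
        linarith
  refine le_trans (le_of_eq ?_) (sum_le_sum (fun j _ => sum_le_sum (fun i _ => key i j)))
  simp only [sum_add_distrib, ← mul_sum, sum_ite_eq', mem_univ, if_true, sum_const, card_univ,
    Fintype.card_option, ZMod.card, en, nsmul_eq_mul]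
  push_cast
  ring

lemma GapData.inner_lap (h : GapData g) (x y : V) :
    (⟪lap g x, y⟫_ℂ).re = ∑ i, (⟪(1 - avg (g i)) x, (1 - avg (g i)) y⟫_ℂ).re := by
  simp only [lap, _root_.sum_apply, sum_inner, Complex.re_sum]
  refine sum_congr rfl (fun i _ => ?_)
  rw [(h.fam i).proj.compl.inner_both, (h.fam i).proj.compl.symm]

lemma GapData.step (h : GapData g) (x : V) :
    ∃ y, en g y ≤ 15 / 16 * en g x ∧ ‖x‖ ^ 2 - 1 / 2 * en g x ≤ ‖y‖ ^ 2 := by
  have e : ‖(1 / 4 : ℂ)‖ = 1 / 4 := by simp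
  have e2 : ∀ c : ℂ, ((1 / 4 : ℂ) * c).re = 1 / 4 * c.re := fun c => by
    rw [show (1 / 4 : ℂ) = ((1 / 4 : ℝ) : ℂ) by push_cast; rfl, Complex.re_ofReal_mul]
  refine ⟨x - (1 / 4 : ℂ) • lap g x, ?_, ?_⟩
  · have h1 := h.gap x
    have h2 := h.inner_lap x (lap g x)
    rw [re_inner_self] at h2
    have h3 : ∑ i, ‖(1 - avg (g i)) (lap g x)‖ ^ 2 ≤ 4 * ‖lap g x‖ ^ 2 := by
      refine (sum_le_sum (fun i _ => (h.fam i).proj.compl.norm_le _)).trans (le_of_eq ?_)
      simp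
    have h4 : en g (x - (1 / 4 : ℂ) • lap g x) = en g x - 1 / 2 * ‖lap g x‖ ^ 2 +
        1 / 16 * ∑ i, ‖(1 - avg (g i)) (lap g x)‖ ^ 2 := by
      rw [h2]
      simp only [en, map_sub, map_smul, norm_sub_sq', norm_smul, inner_smul_right, e, e2, mul_sum,
        ← sum_add_distrib, ← sum_sub_distrib]
      exact sum_congr rfl (fun i _ => by ring)
    rw [h4]; linarith
  · have h2 := h.inner_lap x x
    simp only [re_inner_self] at h2
    rw [norm_sub_sq', inner_smul_right, e2, re_inner_comm, h2]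
    unfold en
    nlinarith [sq_nonneg ‖(1 / 4 : ℂ) • lap g x‖]

theorem GapData.improve (h : GapData g) (x : V) {η : ℝ} (hη : 0 < η) :
    ∃ y, EN g y ≤ η ∧ ‖x‖ ^ 2 - EN g x ≤ ‖y‖ ^ 2 := by
  have key : ∀ J : ℕ, ∃ y, en g y ≤ (15 / 16) ^ J * en g x ∧
      ‖x‖ ^ 2 - 8 * en g x ≤ ‖y‖ ^ 2 - 8 * en g y := by
    intro J
    induction J with
    | zero => exact ⟨x, by simp, le_rfl⟩
    | succ J ih =>
      obtain ⟨y, h1, h2⟩ := ih
      obtain ⟨y', h3, h4⟩ := h.step y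
      exact ⟨y', by rw [pow_succ]; linarith, by linarith⟩
  have h0 := en_nonneg g x
  obtain ⟨J, hJ⟩ := exists_pow_lt_of_lt_one (x := η / (34 * (en g x + 1))) (y := 15 / 16)
    (by positivity) (by norm_num)
  obtain ⟨y, h1, h2⟩ := key J
  have h3 := en_nonneg g y
  rw [lt_div_iff₀ (by positivity)] at hJ
  have h4 : (0 : ℝ) ≤ (15 / 16) ^ J := by positivity
  exact ⟨y, by rw [h.EN_eq]; nlinarith, by rw [h.EN_eq]; linarith⟩

theorem GapData.near_inv [FiniteDimensional ℂ V] (h : GapData g) (x : V) :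
    ∃ y, (∀ i t, g i t y = y) ∧ ‖x - y‖ ^ 2 ≤ EN g x := by
  obtain ⟨a, ha, y, hy, rfl⟩ := (LinearMap.range (lap g).toLinearMap).exists_add_mem_mem_orthogonal x
  obtain ⟨w, rfl⟩ := ha
  have h0 : ∀ i, (1 - avg (g i)) y = 0 := by
    have h1 := congrArg Complex.re ((Submodule.mem_orthogonal _ _).1 hy (lap g y) ⟨y, rfl⟩)
    rw [h.inner_lap] at h1
    simp only [re_inner_self, Complex.zero_re] at h1
    intro i
    have := (sum_eq_zero_iff_of_nonneg (fun _ _ => sq_nonneg _)).1 h1 i (mem_univ _)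
    simpa using this
  refine ⟨y, fun i t => ?_, ?_⟩
  · have h1 : y = avg (g i) y := by simpa [sub_eq_zero] using h0 i
    rw [h1, ← mul_apply_eq_comp, (h.fam i).mul_avg]
  · have h1 := h.gap w
    have h2 := h.inner_lap w (lap g w)
    rw [re_inner_self] at h2
    simp only [ContinuousLinearMap.coe_coe, add_sub_cancel_right]
    rw [h.EN_eq]
    have h3 : en g (lap g w + y) = en g (lap g w) := by simp only [en, map_add, h0, add_zero]
    have h4 : ‖lap g w‖ ^ 2 ≤ 1 / 8 * en g w + 2 * en g (lap g w) := by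
      rw [h2]
      unfold en
      rw [mul_sum, mul_sum, ← sum_add_distrib]
      refine sum_le_sum (fun i _ => (re_inner_le _ _).trans ?_)
      nlinarith [sq_nonneg (‖(1 - avg (g i)) w‖ - 4 * ‖(1 - avg (g i)) (lap g w)‖)]
    have h5 := en_nonneg g (lap g w)
    rw [h3]; linarith

end Vale.Agent.P083
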