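import Vale.Agent.P083.Gap

/-! The self-similar group and its monomial representations. -/

namespace Vale.Agent.P083
open Finset
open scoped InnerProductSpace

def K : ℕ → Type
  | 0 => Unit
  | n + 1 => F × K n

instance finK : (n : ℕ) → Fintype (K n)
  | 0 => inferInstanceAs (Fintype Unit)
  | n + 1 => haveI := finK n; inferInstanceAs (Fintype (F × K n))

instance decK : (n : ℕ) → DecidableEq (K n)
  | 0 => inferInstanceAs (DecidableEq Unit)
  | n + 1 => haveI := decK n; inferInstanceAs (DecidableEq (F × K n))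

/-- coordinates; the top coordinate is one -/
def co : (k : ℕ) → {n : ℕ} → K n → F
  | 0, 0, _ => 1
  | _ + 1, 0, _ => 0
  | 0, _ + 1, x => x.1
  | k + 1, _ + 1, x => co k x.2

lemma co_top : ∀ (n : ℕ) (x : K n), co n x = 1
  | 0, _ => rfl
  | n + 1, x => co_top n x.2

lemma co_big : ∀ (n : ℕ) (x : K n), co (n + 1) x = 0
  | 0, _ => rfl
  | n + 1, x => co_big n x.2

lemma K_ext : ∀ {n : ℕ} {x y : K n}, (∀ k, co k x = co k y) → x = y
  | 0, _, _, _ => rfl
  | _ + 1, _, _, h => Prod.ext (h 0) (K_ext (fun k => h (k + 1)))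

def sh (j : ℕ) : (r : ZMod 3) → (t : F) → {n : ℕ} → K n → K n
  | _, _, 0, x => x
  | r, t, _ + 1, x => (x.1 + if r = 0 then t * co j x.2 else 0, sh j (r - 1) t x.2)

lemma co_sh (j : ℕ) (t : F) : ∀ (k : ℕ) (r : ZMod 3) {n : ℕ} (x : K n),
    co k (sh j r t x) = co k x + if (k : ZMod 3) = r then t * co (k + j + 1) x else 0
  | 0, _, 0, _ => by simp [co]
  | _ + 1, _, 0, _ => by simp [co]
  | 0, r, _ + 1, x => by
    simp only [sh, co, Nat.cast_zero, eq_comm (a := r), Nat.zero_add]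
  | k + 1, r, _ + 1, x => by
    simp only [sh, co, co_sh j t k (r - 1) x.2, show k + 1 + j = (k + j + 1) by ring]
    congr 2
    push_cast
    exact propext eq_sub_iff_add_eq

lemma sh_add {j : ℕ} (hj : j ≤ 1) (r : ZMod 3) (s t : F) {n : ℕ} (x : K n) :
    sh j r s (sh j r t x) = sh j r (s + t) x := by
  apply K_ext
  intro k
  simp only [co_sh]
  split_ifs with h1 h2
  · exfalso
    rw [← h1] at h2
    push_cast at h2
    obtain rfl | rfl : j = 0 ∨ j = 1 := by omega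
    · revert h2; generalize (k : ZMod 3) = a; revert a; decide
    · revert h2; generalize (k : ZMod 3) = a; revert a; decide
  · ring
  · ring

lemma sh_zero (j : ℕ) (r : ZMod 3) {n : ℕ} (x : K n) : sh j r 0 x = x := by
  apply K_ext; intro k; simp [co_sh]

def shP {j : ℕ} (hj : j ≤ 1) (r : ZMod 3) (t : F) (n : ℕ) : Equiv.Perm (K n) where
  toFun := sh j r t
  invFun := sh j r (-t)
  left_inv := fun x => by rw [sh_add hj, neg_add_cancel, sh_zero]
  right_inv := fun x => by rw [sh_add hj, add_neg_cancel, sh_zero]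

@[ext] structure Gn (n : ℕ) where
  σ : Equiv.Perm (K n)
  c : K n → F

instance (n : ℕ) : Monoid (Gn n) where
  mul g h := ⟨g.σ * h.σ, fun x => h.c x + g.c (h.σ x)⟩
  one := ⟨1, 0⟩
  mul_assoc g h k := Gn.ext rfl (funext fun _ => (add_assoc _ _ _).symm)
  one_mul g := Gn.ext rfl (funext fun _ => add_zero _)
  mul_one g := Gn.ext rfl (funext fun _ => zero_add _)

@[simp] lemma Gn.mul_σ {n : ℕ} (g h : Gn n) : (g * h).σ = g.σ * h.σ := rfl
@[simp] lemma Gn.mul_c {n : ℕ} (g h : Gn n) (x : K n) : (g * h).c x = h.c x + g.c (h.σ x) := rfl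
@[simp] lemma Gn.one_σ {n : ℕ} : (1 : Gn n).σ = 1 := rfl
@[simp] lemma Gn.one_c {n : ℕ} (x : K n) : (1 : Gn n).c x = 0 := rfl

abbrev G := ∀ n, Gn n

lemma G_ext {g h : G} (h1 : ∀ n x k, co k ((g n).σ x) = co k ((h n).σ x))
    (h2 : ∀ n x, (g n).c x = (h n).c x) : g = h :=
  funext fun n => Gn.ext (Equiv.ext fun x => K_ext (h1 n x)) (funext (h2 n))

def gX (r : ZMod 3) (t : F) : G := fun n => ⟨shP (Nat.zero_le 1) r t n, 0⟩
def gZ (r : ZMod 3) (t : F) : G := fun n => ⟨shP le_rfl r t n, 0⟩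
def gD (k : ℕ) (t : F) : G := fun _ => ⟨1, fun x => t * co k x⟩

@[simp] lemma gX_σ (r : ZMod 3) (t : F) (n : ℕ) (x : K n) : (gX r t n).σ x = sh 0 r t x := rfl
@[simp] lemma gZ_σ (r : ZMod 3) (t : F) (n : ℕ) (x : K n) : (gZ r t n).σ x = sh 1 r t x := rfl
@[simp] lemma gD_σ (k : ℕ) (t : F) (n : ℕ) (x : K n) : (gD k t n).σ x = x := rfl
@[simp] lemma gX_c (r : ZMod 3) (t : F) (n : ℕ) (x : K n) : (gX r t n).c x = 0 := rfl
@[simp] lemma gZ_c (r : ZMod 3) (t : F) (n : ℕ) (x : K n) : (gZ r t n).c x = 0 := rfl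
@[simp] lemma gD_c (k : ℕ) (t : F) (n : ℕ) (x : K n) : (gD k t n).c x = t * co k x := rfl

lemma gX_add (r : ZMod 3) (s t : F) : gX r (s + t) = gX r s * gX r t :=
  G_ext (fun n x k => by simp [sh_add]) (fun n x => by simp)
lemma gZ_add (r : ZMod 3) (s t : F) : gZ r (s + t) = gZ r s * gZ r t :=
  G_ext (fun n x k => by simp [sh_add]) (fun n x => by simp)
lemma gD_add (k : ℕ) (s t : F) : gD k (s + t) = gD k s * gD k t :=
  G_ext (fun n x k => by simp) (fun n x => by simp; ring)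
lemma gX_zero (r : ZMod 3) : gX r 0 = 1 := G_ext (fun n x k => by simp [sh_zero]) (fun n x => by simp)
lemma gZ_zero (r : ZMod 3) : gZ r 0 = 1 := G_ext (fun n x k => by simp [sh_zero]) (fun n x => by simp)
lemma gD_zero (k : ℕ) : gD k 0 = 1 := G_ext (fun n x k => by simp) (fun n x => by simp)

lemma z3 (a r : ZMod 3) : (a = r ∧ a ≠ r + 1 ∧ a + 1 ≠ r ∧ a + 1 + 1 ≠ r + 1 ∧ a + 1 + 1 ≠ r) ∨
    (a ≠ r ∧ a = r + 1 ∧ a + 1 ≠ r ∧ a + 1 ≠ r + 1) ∨ (a ≠ r ∧ a ≠ r + 1) := by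
  revert a r; decide

lemma gXX (r : ZMod 3) (s t : F) :
    gX r s * gX (r + 1) t = gZ r (s * t) * (gX (r + 1) t * gX r s) := by
  refine G_ext (fun n x k => ?_) (fun n x => by simp)
  simp only [Pi.mul_apply, Gn.mul_σ, Equiv.Perm.mul_apply, gX_σ, gZ_σ, co_sh, add_zero]
  push_cast
  rcases z3 k r with ⟨h, h1, h2, h3, h4⟩ | ⟨h, h1, h2, h3⟩ | ⟨h, h1⟩
  · simp only [if_pos h, if_neg h1, if_neg h2, if_neg h3, if_neg h4, if_pos (congrArg (· + 1) h)]
    ring
  · simp only [if_neg h, if_pos h1, if_neg h2]; ring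
  · simp only [if_neg h, if_neg h1, add_zero]

lemma gZX (r : ZMod 3) (s t : F) : Commute (gZ r s) (gX r t) := by
  refine G_ext (fun n x k => ?_) (fun n x => by simp)
  simp only [Pi.mul_apply, Gn.mul_σ, Equiv.Perm.mul_apply, gX_σ, gZ_σ, co_sh, add_zero]
  push_cast
  rcases z3 k r with ⟨h, h1, h2, h3, h4⟩ | ⟨h, h1, h2, h3⟩ | ⟨h, h1⟩
  · simp only [if_pos h, if_neg h2, if_neg h4]; ring
  · simp only [if_neg h]
  · simp only [if_neg h]

lemma gZX' (r : ZMod 3) (s t : F) : Commute (gZ r s) (gX (r + 1) t) := by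
  refine G_ext (fun n x k => ?_) (fun n x => by simp)
  simp only [Pi.mul_apply, Gn.mul_σ, Equiv.Perm.mul_apply, gX_σ, gZ_σ, co_sh, add_zero]
  push_cast
  rcases z3 k r with ⟨h, h1, h2, h3, h4⟩ | ⟨h, h1, h2, h3⟩ | ⟨h, h1⟩
  · simp only [if_pos h, if_neg h1, if_neg h3]; ring
  · simp only [if_neg h, if_pos h1, if_neg h2]; ring
  · simp only [if_neg h, if_neg h1]

lemma gDX (k : ℕ) (s t : F) :
    gD k s * gX k t = gD (k + 1) (s * t) * (gX k t * gD k s) := by
  refine G_ext (fun n x k => by simp) (fun n x => ?_)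
  have : (k : ZMod 3) + 1 ≠ k := by generalize (k : ZMod 3) = a; revert a; decide
  simp [co_sh, this]
  ring

lemma gDX' {k : ℕ} {r : ZMod 3} (h : (k : ZMod 3) ≠ r) (s t : F) : Commute (gD k s) (gX r t) :=
  G_ext (fun n x k => by simp) (fun n x => by simp [co_sh, h])

lemma gDD (k l : ℕ) (s t : F) : Commute (gD k s) (gD l t) :=
  G_ext (fun n x k => by simp) (fun n x => by simp; ring)

def Gens : Set G := Set.range (fun q : ZMod 3 × F => gX q.1 q.2) ∪
  (Set.range (fun q : ZMod 3 × F => gZ q.1 q.2) ∪ Set.range (fun q : ℕ × F => gD q.1 q.2))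

lemma Gens_countable : Gens.Countable :=
  (Set.countable_range _).union ((Set.countable_range _).union (Set.countable_range _))

abbrev G0 := Submonoid.closure Gens

def hX (r : ZMod 3) (t : F) : G0 := ⟨gX r t, Submonoid.subset_closure (Or.inl ⟨(r, t), rfl⟩)⟩
def hZ (r : ZMod 3) (t : F) : G0 :=
  ⟨gZ r t, Submonoid.subset_closure (Or.inr (Or.inl ⟨(r, t), rfl⟩))⟩
def hD (k : ℕ) (t : F) : G0 := ⟨gD k t, Submonoid.subset_closure (Or.inr (Or.inr ⟨(k, t), rfl⟩))⟩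

def gen : Ix → F → G0
  | none, t => hD 0 t
  | some r, t => hX r t

variable {V : Type*} [NormedAddCommGroup V] [InnerProductSpace ℂ V]

lemma fam_of (Φ : G0 →* (V →L[ℂ] V)) (hΦ : ∀ g x, ‖Φ g x‖ = ‖x‖) (a : F → G0)
    (h0 : (a 0 : G) = 1) (h1 : ∀ s t, (a (s + t) : G) = a s * a t) : Fam (fun t => Φ (a t)) where
  zero := by rw [show a 0 = 1 from Subtype.ext h0, map_one]
  add := fun s t => by rw [show a (s + t) = a s * a t from Subtype.ext (h1 s t), map_mul]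
  iso := fun t x => hΦ _ x

lemma heis_of (Φ : G0 →* (V →L[ℂ] V)) (hΦ : ∀ g x, ‖Φ g x‖ = ‖x‖) (a b z : F → G0)
    (h0 : (z 0 : G) = 1) (h1 : ∀ s t, (z (s + t) : G) = z s * z t)
    (h2 : ∀ s t, (a s * b t : G) = z (s * t) * (b t * a s))
    (h3 : ∀ s t, Commute (z s : G) (a t)) (h4 : ∀ s t, Commute (z s : G) (b t)) :
    Heis (fun t => Φ (a t)) (fun t => Φ (b t)) := by
  refine ⟨fun t => Φ (z t), fam_of Φ hΦ z h0 h1, fun s t => ?_, fun s t => ?_, fun s t => ?_⟩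
  · rw [← map_mul, ← map_mul, ← map_mul]
    exact congrArg Φ (Subtype.ext (h2 s t))
  · exact Commute.map (show Commute (z s) (a t) from Subtype.ext (h3 s t)) Φ
  · exact Commute.map (show Commute (z s) (b t) from Subtype.ext (h4 s t)) Φ

theorem gapData_of (Φ : G0 →* (V →L[ℂ] V)) (hΦ : ∀ g x, ‖Φ g x‖ = ‖x‖) :
    GapData (fun i t => Φ (gen i t)) where
  fam := by
    rintro (_ | r)
    · exact fam_of Φ hΦ (hD 0) (gD_zero 0) (gD_add 0)
    · exact fam_of Φ hΦ (hX r) (gX_zero r) (gX_add r)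
  heis := by
    have hDX : ∀ r, Heis (fun t => Φ (hD 0 t)) (fun t => Φ (hX r t)) := by
      intro r
      by_cases hr : r = 0
      · subst hr
        exact heis_of Φ hΦ (hD 0) (hX 0) (hD 1) (gD_zero 1) (gD_add 1) (gDX 0) (gDD 1 0)
          (gDX' (by decide))
      · exact heis_of Φ hΦ (hD 0) (hX r) (fun _ => 1) rfl (fun _ _ => (one_mul _).symm)
          (fun s t => by
            rw [OneMemClass.coe_one, one_mul]
            exact gDX' (by simpa using Ne.symm hr) s t)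
          (fun _ _ => Commute.one_left _) (fun _ _ => Commute.one_left _)
    have hXX : ∀ r, Heis (fun t => Φ (hX r t)) (fun t => Φ (hX (r + 1) t)) := fun r =>
      heis_of Φ hΦ (hX r) (hX (r + 1)) (hZ r) (gZ_zero r) (gZ_add r) (gXX r) (gZX r) (gZX' r)
    rintro (_ | r) (_ | r') h
    · exact absurd rfl h
    · exact Or.inl (hDX r')
    · exact Or.inr (hDX r)
    · have : r' = r + 1 ∨ r = r' + 1 := by
        have : r ≠ r' := fun e => h (congrArg some e)
        revert r r'; decide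
      rcases this with rfl | rfl
      · exact Or.inl (hXX r)
      · exact Or.inr (hXX r')

/-! Monomial operators -/

noncomputable def ψ (t : F) : ℂ := ZMod.stdAddChar t

lemma ψ_add (s t : F) : ψ (s + t) = ψ s * ψ t := AddChar.map_add_eq_mul _ _ _
@[simp] lemma ψ_zero : ψ 0 = 1 := AddChar.map_zero_eq_one _
@[simp] lemma norm_ψ (t : F) : ‖ψ t‖ = 1 := by
  rw [ψ, ZMod.stdAddChar_apply]; exact Circle.norm_coe _
lemma ψ_inj : Function.Injective ψ := ZMod.injective_stdAddChar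
lemma ψ_neg_mul (t : F) : ψ (-t) * ψ t = 1 := by rw [← ψ_add, neg_add_cancel, ψ_zero]
lemma conj_ψ (t : F) : (starRingEnd ℂ) (ψ t) = ψ (-t) := by
  simp [ψ, AddChar.map_neg_eq_conj]

abbrev E (n : ℕ) (H : Type*) := PiLp 2 (fun _ : K n => H)

variable {H : Type*} [NormedAddCommGroup H] [InnerProductSpace ℂ H] {n : ℕ}

omit [InnerProductSpace ℂ H] in
lemma E_norm_sq (x : E n H) : ‖x‖ ^ 2 = ∑ a, ‖x a‖ ^ 2 := PiLp.norm_sq_eq_of_L2 _ x

noncomputable def monL (g : Gn n) (u : H →L[ℂ] H) : E n H →ₗ[ℂ] E n H where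
  toFun x := WithLp.toLp 2 (fun a => ψ (-g.c (g.σ.symm a)) • u (x (g.σ.symm a)))
  map_add' x y := by ext a; simp
  map_smul' c x := by ext a; simp [smul_comm c]

lemma monL_norm_sq (g : Gn n) (u : H →L[ℂ] H) (x : E n H) :
    ‖monL g u x‖ ^ 2 = ∑ a, ‖u (x a)‖ ^ 2 := by
  rw [E_norm_sq, ← Equiv.sum_comp g.σ]
  simp [monL, norm_smul]

lemma monL_le (g : Gn n) (u : H →L[ℂ] H) (x : E n H) : ‖monL g u x‖ ≤ ‖u‖ * ‖x‖ := by
  rw [← sq_le_sq₀ (by positivity) (by positivity), monL_norm_sq, mul_pow, E_norm_sq, mul_sum]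
  refine sum_le_sum (fun a _ => ?_)
  rw [← mul_pow]
  exact pow_le_pow_left₀ (norm_nonneg _) (u.le_opNorm _) 2

noncomputable def mon (g : Gn n) (u : H →L[ℂ] H) : E n H →L[ℂ] E n H :=
  (monL g u).mkContinuous ‖u‖ (monL_le g u)

lemma mon_apply (g : Gn n) (u : H →L[ℂ] H) (x : E n H) (a : K n) :
    mon g u x (g.σ a) = ψ (-g.c a) • u (x a) := by
  simp [mon, monL]

lemma mon_norm_sq (g : Gn n) (u : H →L[ℂ] H) (x : E n H) :
    ‖mon g u x‖ ^ 2 = ∑ a, ‖u (x a)‖ ^ 2 := monL_norm_sq g u x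

lemma mon_norm_le (g : Gn n) (u : H →L[ℂ] H) : ‖mon g u‖ ≤ ‖u‖ :=
  LinearMap.mkContinuous_norm_le _ (norm_nonneg _) _

lemma mon_mul (g h : Gn n) (u v : H →L[ℂ] H) : mon g u * mon h v = mon (g * h) (u * v) := by
  ext x a
  obtain ⟨a, rfl⟩ := (g * h).σ.surjective a
  rw [mon_apply, mul_apply_eq_comp, Gn.mul_σ, Equiv.Perm.mul_apply, mon_apply, mon_apply,
    map_smul, smul_smul, ← ψ_add, Gn.mul_c, mul_apply_eq_comp]
  congr 2
  ring

lemma mon_one : mon (1 : Gn n) (1 : H →L[ℂ] H) = 1 := by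
  ext x a
  have := mon_apply (1 : Gn n) (1 : H →L[ℂ] H) x a
  simpa using this

lemma mon_sub (g : Gn n) (u v : H →L[ℂ] H) : mon g u - mon g v = mon g (u - v) := by
  ext x a
  obtain ⟨a, rfl⟩ := g.σ.surjective a
  simp [mon_apply, smul_sub]

lemma sub_mon_norm_sq (g : Gn n) (u : H →L[ℂ] H) (x : E n H) :
    ‖x - mon g u x‖ ^ 2 = ∑ a, ‖x (g.σ a) - ψ (-g.c a) • u (x a)‖ ^ 2 := by
  rw [E_norm_sq, ← Equiv.sum_comp g.σ]
  simp [mon_apply]

end Vale.Agent.P083
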