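import Vale.Agent.P083.Rank

/-! Localisation to bounded rank for operators generated by two Cuntz isometries. -/

namespace Vale.Agent.P083
open Finset Filter Topology
open scoped InnerProductSpace

variable {H : Type*} [NormedAddCommGroup H] [InnerProductSpace ℂ H] [CompleteSpace H]

structure Cuntz (S T : H →L[ℂ] H) : Prop where
  hS : star S * S = 1
  hT : star T * T = 1
  hST : S * star S + T * star T = 1

variable {S T : H →L[ℂ] H}

lemma Cuntz.ST (h : Cuntz S T) : star S * T = 0 := by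
  have : star S * (S * star S + T * star T) * T = star S * T + star S * T := by
    rw [mul_add, add_mul, ← mul_assoc, h.hS, one_mul, mul_assoc, mul_assoc, h.hT, mul_one]
  rw [h.hST, mul_one] at this
  exact left_eq_add.1 this

lemma Cuntz.TS (h : Cuntz S T) : star T * S = 0 := by
  have := congrArg star h.ST
  rwa [star_mul, star_star, star_zero] at this

lemma inner_star (A B : H →L[ℂ] H) (x y : H) : ⟪A x, B y⟫_ℂ = ⟪x, (star A * B) y⟫_ℂ := by
  rw [mul_apply_eq_comp, ContinuousLinearMap.star_eq_adjoint,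
    ContinuousLinearMap.adjoint_inner_right]

lemma Cuntz.inner_pair (h : Cuntz S T) (x y x' y' : H) :
    ⟪S x + T y, S x' + T y'⟫_ℂ = ⟪x, x'⟫_ℂ + ⟪y, y'⟫_ℂ := by
  simp [inner_add_left, inner_add_right, inner_star, h.hS, h.hT, h.ST, h.TS]

lemma Cuntz.norm_pair (h : Cuntz S T) (x y : H) : ‖S x + T y‖ ^ 2 = ‖x‖ ^ 2 + ‖y‖ ^ 2 := by
  rw [← re_inner_self, h.inner_pair, Complex.add_re, re_inner_self, re_inner_self]

lemma Cuntz.norm_split (h : Cuntz S T) (x : H) : ‖star S x‖ ^ 2 + ‖star T x‖ ^ 2 = ‖x‖ ^ 2 := by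
  rw [← h.norm_pair]
  exact congrArg (fun A : H →L[ℂ] H => ‖A x‖ ^ 2) h.hST

variable (S T) in
noncomputable def Lam (η e : H) : ℕ → H →L[ℂ] H
  | 0 => InnerProductSpace.rankOne ℂ η e
  | j + 1 => S * Lam η e j * star S + T * Lam η e j * star T

lemma Lam_zero (η e x : H) : Lam S T η e 0 x = ⟪e, x⟫_ℂ • η := rfl
lemma Lam_succ (η e x : H) (j : ℕ) :
    Lam S T η e (j + 1) x = S (Lam S T η e j (star S x)) + T (Lam S T η e j (star T x)) := rfl

lemma Cuntz.hasSum_Lam (h : Cuntz S T) {ι : Type*} (b : HilbertBasis ι ℂ H) {η : H}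
    (hη : ‖η‖ = 1) : ∀ (j : ℕ) (x : H), HasSum (fun y => ‖Lam S T η (b y) j x‖ ^ 2) (‖x‖ ^ 2)
  | 0, x => by
    have := Complex.reCLM.hasSum (b.hasSum_inner_mul_inner x x)
    simp only [Complex.reCLM_apply, re_inner_self] at this
    convert this using 2 with y
    rw [Lam_zero, norm_smul, hη, mul_one, ← inner_conj_symm x (b y), Complex.conj_mul']
    norm_cast
  | j + 1, x => by
    simp only [Lam_succ, h.norm_pair, ← h.norm_split x]
    exact (h.hasSum_Lam b hη j _).add (h.hasSum_Lam b hη j _)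

lemma Cuntz.inner_pow (h : Cuntz S T) (x y : H) : ∀ c : ℕ, ⟪(S ^ c) x, (S ^ c) y⟫_ℂ = ⟪x, y⟫_ℂ
  | 0 => by simp
  | c + 1 => by
    rw [pow_succ', mul_apply_eq_comp, mul_apply_eq_comp, inner_star, h.hS, one_apply_eq_self,
      h.inner_pow x y c]

lemma Cuntz.orth0 (h : Cuntz S T) (η0 e : H) (L c : ℕ) (hc : c < L) : ∀ (j : ℕ) (x : H),
    ⟪(S ^ (c + j)) (T η0), Lam S T ((S ^ L) (T η0)) e j x⟫_ℂ = 0
  | 0, x => by
    obtain ⟨d, rfl⟩ := Nat.exists_eq_add_of_lt hc
    rw [Lam_zero, inner_smul_right, add_zero, add_assoc, pow_add, mul_apply_eq_comp, h.inner_pow,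
      pow_succ', mul_apply_eq_comp, inner_star, h.TS]
    simp
  | j + 1, x => by
    have := h.inner_pair ((S ^ (c + j)) (T η0)) 0
      (Lam S T ((S ^ L) (T η0)) e j (star S x)) (Lam S T ((S ^ L) (T η0)) e j (star T x))
    rw [map_zero, add_zero, inner_zero_left, add_zero, h.orth0 η0 e L c hc j] at this
    rw [Lam_succ, ← add_assoc, pow_succ', mul_apply_eq_comp, this]

lemma Cuntz.orth (h : Cuntz S T) (η0 e : H) (L : ℕ) : ∀ (j j' : ℕ) (x x' : H), j < j' → j' ≤ L →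
    ⟪Lam S T ((S ^ L) (T η0)) e j x, Lam S T ((S ^ L) (T η0)) e j' x'⟫_ℂ = 0
  | 0, j', x, x', h1, h2 => by
    have := h.orth0 η0 e L (L - j') (by omega) j' x'
    rw [show L - j' + j' = L by omega] at this
    rw [Lam_zero, inner_smul_left, this, mul_zero]
  | j + 1, j' + 1, x, x', h1, h2 => by
    rw [Lam_succ, Lam_succ, h.inner_pair, h.orth η0 e L j j' _ _ (by omega) (by omega),
      h.orth η0 e L j j' _ _ (by omega) (by omega), add_zero]

variable (S T) in
noncomputable def VV (η0 : H) (L : ℕ) (e : H) : H →L[ℂ] H :=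
  ∑ j ∈ range L, Lam S T ((S ^ L) (T η0)) e j

lemma Cuntz.norm_eta (h : Cuntz S T) {η0 : H} (h0 : ‖η0‖ = 1) (L : ℕ) : ‖(S ^ L) (T η0)‖ = 1 := by
  rw [← sq_eq_sq₀ (norm_nonneg _) zero_le_one, ← re_inner_self, h.inner_pow, inner_star, h.hT,
    one_apply_eq_self, re_inner_self, h0]

lemma Cuntz.hasSum_VV (h : Cuntz S T) {ι : Type*} (b : HilbertBasis ι ℂ H) {η0 : H}
    (h0 : ‖η0‖ = 1) (L : ℕ) (x : H) :
    HasSum (fun y => ‖VV S T η0 L (b y) x‖ ^ 2) (L * ‖x‖ ^ 2) := by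
  have := hasSum_sum (s := range L) (fun j _ => h.hasSum_Lam b (h.norm_eta h0 L) j x)
  rw [sum_const, card_range, nsmul_eq_mul] at this
  convert this using 2 with y
  rw [← re_inner_self, VV, _root_.sum_apply, sum_inner, Complex.re_sum]
  refine sum_congr rfl (fun j hj => ?_)
  rw [inner_sum, sum_eq_single j _ (fun h => absurd hj h), re_inner_self]
  intro j' hj' hne
  rcases lt_or_gt_of_ne hne with h1 | h1
  · rw [← inner_conj_symm, h.orth η0 _ L j' j _ _ h1 (mem_range.1 hj).le, map_zero]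
  · exact h.orth η0 _ L j j' _ _ h1 (mem_range.1 hj').le

lemma exists_W (S T : H →L[ℂ] H) (η : H) : ∀ L : ℕ, ∃ W : Submodule ℂ H, FiniteDimensional ℂ W ∧
    ∀ j ≤ L, ∀ e x, Lam S T η e j x ∈ W
  | 0 => ⟨Submodule.span ℂ {η}, inferInstance, fun j hj e x => by
      obtain rfl : j = 0 := by omega
      exact Submodule.smul_mem _ _ (Submodule.mem_span_singleton_self η)⟩
  | L + 1 => by
    obtain ⟨W, h1, h2⟩ := exists_W S T η L
    refine ⟨W ⊔ (W.map S.toLinearMap ⊔ W.map T.toLinearMap), inferInstance, fun j hj e x => ?_⟩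
    cases j with
    | zero => exact Submodule.mem_sup_left (h2 0 (Nat.zero_le _) e x)
    | succ j =>
      exact Submodule.mem_sup_right (Submodule.add_mem_sup ⟨_, h2 j (by omega) e _, rfl⟩
        ⟨_, h2 j (by omega) e _, rfl⟩)

section Col
variable {ι : Type*}

/-- the column of a finite family of operators -/
def col (Y : Finset ι) (A : ι → H →L[ℂ] H) (x : H) : PiLp 2 (fun _ : Y => H) :=
  WithLp.toLp 2 (fun y => A y x)

omit [CompleteSpace H] in
lemma col_norm_sq (Y : Finset ι) (A : ι → H →L[ℂ] H) (x : H) :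
    ‖col Y A x‖ ^ 2 = ∑ y ∈ Y, ‖A y x‖ ^ 2 := by
  rw [PiLp.norm_sq_eq_of_L2, ← sum_coe_sort Y]; rfl

omit [CompleteSpace H] in
lemma col_le (Y : Finset ι) (A : ι → H →L[ℂ] H) (x : H) {c : ℝ} (hc : 0 ≤ c)
    (h : HasSum (fun y => ‖A y x‖ ^ 2) (c ^ 2)) : ‖col Y A x‖ ≤ c := by
  rw [← sq_le_sq₀ (norm_nonneg _) hc, col_norm_sq]
  exact sum_le_hasSum Y (fun _ _ => sq_nonneg _) h

omit [CompleteSpace H] in
lemma col_mul_le (Y : Finset ι) (a : H →L[ℂ] H) (A : ι → H →L[ℂ] H) (x : H) :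
    ‖col Y (fun y => a * A y) x‖ ≤ ‖a‖ * ‖col Y A x‖ := by
  rw [← sq_le_sq₀ (norm_nonneg _) (by positivity), mul_pow, col_norm_sq, col_norm_sq, mul_sum]
  refine sum_le_sum (fun y _ => ?_)
  rw [← mul_pow]
  exact pow_le_pow_left₀ (norm_nonneg _) (a.le_opNorm _) 2

variable (b : HilbertBasis ι ℂ H) (η0 : H)

variable (S T) in
def Loc (a : H →L[ℂ] H) : Prop := ∀ ε > (0 : ℝ), ∀ᶠ L : ℕ in atTop, ∀ (Y : Finset ι) (x : H),
  ‖col Y (fun y => a * VV S T η0 L (b y) - VV S T η0 L (b y) * a) x‖ ≤ ε * √L * ‖x‖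

variable {η0}

lemma Cuntz.col_VV (h : Cuntz S T) (h0 : ‖η0‖ = 1) (L : ℕ) (Y : Finset ι) (x : H) :
    ‖col Y (fun y => VV S T η0 L (b y)) x‖ ≤ √L * ‖x‖ :=
  col_le Y _ x (by positivity) (by
    rw [mul_pow, Real.sq_sqrt (Nat.cast_nonneg _)]; exact h.hasSum_VV b h0 L x)

lemma Cuntz.col_Lam (h : Cuntz S T) (h0 : ‖η0‖ = 1) (L j : ℕ) (Y : Finset ι) (x : H) :
    ‖col Y (fun y => Lam S T ((S ^ L) (T η0)) (b y) j) x‖ ≤ ‖x‖ :=
  col_le Y _ x (norm_nonneg _) (h.hasSum_Lam b (h.norm_eta h0 L) j x)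

lemma loc_of_bdd {a : H →L[ℂ] H} (C : ℝ) (h : ∀ (L : ℕ) (Y : Finset ι) (x : H),
    ‖col Y (fun y => a * VV S T η0 L (b y) - VV S T η0 L (b y) * a) x‖ ≤ C * ‖x‖) :
    Loc S T b η0 a := by
  intro ε hε
  have : Tendsto (fun L : ℕ => ε * √L) atTop atTop :=
    (Real.tendsto_sqrt_atTop.comp tendsto_natCast_atTop_atTop).const_mul_atTop hε
  filter_upwards [this.eventually_ge_atTop C] with L hL Y x
  exact (h L Y x).trans (by gcongr)

lemma Cuntz.loc_left (h : Cuntz S T) (h0 : ‖η0‖ = 1) {a : H →L[ℂ] H}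
    (ha : ∀ η e j, Lam S T η e (j + 1) * a = a * Lam S T η e j) : Loc S T b η0 a := by
  refine loc_of_bdd b (2 * ‖a‖) (fun L Y x => ?_)
  have : col Y (fun y => a * VV S T η0 L (b y) - VV S T η0 L (b y) * a) x =
      col Y (fun y => Lam S T ((S ^ L) (T η0)) (b y) L) (a x) -
        col Y (fun y => Lam S T ((S ^ L) (T η0)) (b y) 0) (a x) := by
    ext y
    have : a * VV S T η0 L (b y) - VV S T η0 L (b y) * a =
        Lam S T ((S ^ L) (T η0)) (b y) L * a - Lam S T ((S ^ L) (T η0)) (b y) 0 * a := by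
      rw [VV, mul_sum, sum_mul, ← sum_sub_distrib]
      simp only [← ha]
      exact sum_range_sub (fun j => Lam S T ((S ^ L) (T η0)) (b y) j * a) L
    exact congrArg (fun A : H →L[ℂ] H => A x) this
  rw [this]
  have h1 := h.col_Lam b h0 L L Y (a x)
  have h2 := h.col_Lam b h0 L 0 Y (a x)
  have h3 := a.le_opNorm x
  exact (norm_sub_le _ _).trans (by linarith)

lemma Cuntz.loc_right (h : Cuntz S T) (h0 : ‖η0‖ = 1) {a : H →L[ℂ] H}
    (ha : ∀ η e j, a * Lam S T η e (j + 1) = Lam S T η e j * a) : Loc S T b η0 a := by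
  refine loc_of_bdd b (2 * ‖a‖) (fun L Y x => ?_)
  have : col Y (fun y => a * VV S T η0 L (b y) - VV S T η0 L (b y) * a) x =
      col Y (fun y => a * Lam S T ((S ^ L) (T η0)) (b y) 0) x -
        col Y (fun y => a * Lam S T ((S ^ L) (T η0)) (b y) L) x := by
    ext y
    have : a * VV S T η0 L (b y) - VV S T η0 L (b y) * a =
        a * Lam S T ((S ^ L) (T η0)) (b y) 0 - a * Lam S T ((S ^ L) (T η0)) (b y) L := by
      rw [VV, mul_sum, sum_mul, ← sum_sub_distrib]
      simp only [← ha]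
      exact sum_range_sub' (fun j => a * Lam S T ((S ^ L) (T η0)) (b y) j) L
    exact congrArg (fun A : H →L[ℂ] H => A x) this
  rw [this]
  have h1 := (col_mul_le Y a _ x).trans
    (mul_le_mul_of_nonneg_left (h.col_Lam b h0 L L Y x) (norm_nonneg a))
  have h2 := (col_mul_le Y a _ x).trans
    (mul_le_mul_of_nonneg_left (h.col_Lam b h0 L 0 Y x) (norm_nonneg a))
  exact (norm_sub_le _ _).trans (by linarith)

lemma Loc.add {a a' : H →L[ℂ] H} (h : Loc S T b η0 a) (h' : Loc S T b η0 a') :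
    Loc S T b η0 (a + a') := by
  intro ε hε
  filter_upwards [h (ε / 2) (half_pos hε), h' (ε / 2) (half_pos hε)] with L h1 h2 Y x
  have : col Y (fun y => (a + a') * VV S T η0 L (b y) - VV S T η0 L (b y) * (a + a')) x =
      col Y (fun y => a * VV S T η0 L (b y) - VV S T η0 L (b y) * a) x +
      col Y (fun y => a' * VV S T η0 L (b y) - VV S T η0 L (b y) * a') x := by
    ext y; simp only [col, PiLp.add_apply, add_mul, mul_add, sub_apply, add_apply]; abel
  rw [this]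
  exact (norm_add_le _ _).trans (by linarith [h1 Y x, h2 Y x])

lemma Loc.mul {a a' : H →L[ℂ] H} (h : Loc S T b η0 a) (h' : Loc S T b η0 a') :
    Loc S T b η0 (a * a') := by
  intro ε hε
  obtain ⟨δ, hδ, hδ2⟩ : ∃ δ > (0 : ℝ), δ * (‖a‖ + ‖a'‖) ≤ ε :=
    ⟨ε / (‖a‖ + ‖a'‖ + 1), by positivity, by
      rw [div_mul_eq_mul_div, div_le_iff₀ (by positivity)]; nlinarith⟩
  filter_upwards [h δ hδ, h' δ hδ] with L h1 h2 Y x
  have : col Y (fun y => (a * a') * VV S T η0 L (b y) - VV S T η0 L (b y) * (a * a')) x =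
      col Y (fun y => a * (a' * VV S T η0 L (b y) - VV S T η0 L (b y) * a')) x +
      col Y (fun y => a * VV S T η0 L (b y) - VV S T η0 L (b y) * a) (a' x) := by
    ext y; simp only [col, PiLp.add_apply, sub_apply, mul_apply_eq_comp, map_sub]; abel
  rw [this]
  have h3 := (col_mul_le Y a _ x).trans (mul_le_mul_of_nonneg_left (h2 Y x) (norm_nonneg a))
  have h4 := (h1 Y (a' x)).trans (mul_le_mul_of_nonneg_left (a'.le_opNorm x) (by positivity))
  refine (norm_add_le _ _).trans ((add_le_add h3 h4).trans ?_)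
  calc _ = δ * (‖a‖ + ‖a'‖) * (√L * ‖x‖) := by ring
    _ ≤ ε * (√L * ‖x‖) := by gcongr
    _ = _ := by ring

lemma loc_scalar (c : ℂ) : Loc S T b η0 (algebraMap ℂ _ c) := by
  refine loc_of_bdd b 0 (fun L Y x => ?_)
  simp only [Algebra.commutes, sub_self]
  rw [zero_mul, ← sq_le_sq₀ (norm_nonneg _) le_rfl, col_norm_sq]
  simp

lemma Cuntz.loc_closed (h : Cuntz S T) (h0 : ‖η0‖ = 1) {a : H →L[ℂ] H}
    (ha : ∀ δ > (0 : ℝ), ∃ a', Loc S T b η0 a' ∧ ‖a - a'‖ ≤ δ) : Loc S T b η0 a := by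
  intro ε hε
  obtain ⟨a', h1, h2⟩ := ha (ε / 3) (by positivity)
  filter_upwards [h1 (ε / 3) (by positivity)] with L h3 Y x
  have : col Y (fun y => a * VV S T η0 L (b y) - VV S T η0 L (b y) * a) x =
      col Y (fun y => a' * VV S T η0 L (b y) - VV S T η0 L (b y) * a') x +
      (col Y (fun y => (a - a') * VV S T η0 L (b y)) x -
        col Y (fun y => VV S T η0 L (b y)) ((a - a') x)) := by
    ext y
    simp only [col, PiLp.add_apply, PiLp.sub_apply, sub_apply, mul_apply_eq_comp, map_sub]; abel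
  rw [this]
  have h4 := (col_mul_le Y (a - a') _ x).trans
    (mul_le_mul h2 (h.col_VV b h0 L Y x) (norm_nonneg _) (by positivity))
  have h5 := (h.col_VV b h0 L Y ((a - a') x)).trans (mul_le_mul_of_nonneg_left
    ((a - a').le_of_opNorm_le h2 x) (by positivity))
  refine (norm_add_le _ _).trans ((add_le_add (h3 Y x) ((norm_sub_le _ _).trans
    (add_le_add h4 h5))).trans (le_of_eq (by ring)))

lemma Cuntz.loc_hom {B : Type*} [CStarAlgebra B] (π : B →⋆ₐ[ℂ] (H →L[ℂ] H)) {s₁ s₂ : B}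
    (h : Cuntz (π s₁) (π s₂)) (h0 : ‖η0‖ = 1)
    (hg : (StarAlgebra.adjoin ℂ {s₁, s₂}).topologicalClosure = ⊤) (x : B) :
    Loc (π s₁) (π s₂) b η0 (π x) := by
  have key : ∀ y ∈ Algebra.adjoin ℂ ({s₁, s₂} ∪ star {s₁, s₂} : Set B),
      Loc (π s₁) (π s₂) b η0 (π y) := by
    intro y hy
    induction hy using Algebra.adjoin_induction with
    | mem y hy =>
      rcases hy with (rfl | rfl) | hy
      · exact h.loc_left b h0 (fun η e j => by
          simp only [Lam, add_mul, mul_assoc, h.hS, h.TS, mul_one, mul_zero, add_zero])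
      · exact h.loc_left b h0 (fun η e j => by
          simp only [Lam, add_mul, mul_assoc, h.hT, h.ST, mul_one, mul_zero, zero_add])
      · rw [← star_star y, map_star]
        rcases hy with hy | hy
        · rw [hy]
          exact h.loc_right b h0 (fun η e j => by
            simp only [Lam, mul_add, ← mul_assoc, h.hS, h.ST, one_mul, zero_mul, add_zero])
        · rw [hy]
          exact h.loc_right b h0 (fun η e j => by
            simp only [Lam, mul_add, ← mul_assoc, h.hT, h.TS, one_mul, zero_mul, zero_add])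
    | algebraMap r => rw [AlgHomClass.commutes]; exact loc_scalar b r
    | add x y _ _ hx hy => rw [map_add]; exact hx.add b hy
    | mul x y _ _ hx hy => rw [map_mul]; exact hx.mul b hy
  refine h.loc_closed b h0 (fun δ hδ => ?_)
  have hx : x ∈ closure (StarAlgebra.adjoin ℂ {s₁, s₂} : Set B) := by
    rw [← StarSubalgebra.topologicalClosure_coe, hg]; trivial
  obtain ⟨y, hy, hd⟩ := Metric.mem_closure_iff.1 hx δ hδ
  refine ⟨π y, key y (by rw [← StarAlgebra.adjoin_toSubalgebra]; exact hy), ?_⟩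
  rw [← map_sub]
  exact (NonUnitalStarAlgHom.norm_apply_le π _).trans (by rw [← dist_eq_norm]; exact hd.le)

theorem Cuntz.no_inv (h : Cuntz S T) (h0 : ‖η0‖ = 1) (u : G0 → H →L[ℂ] H)
    (hu : ∀ i t, ‖u (gen i t)‖ ^ 2 ≤ 1 + 1 / 1000) (hl : ∀ g, Loc S T b η0 (u g)) :
    ∃ n, ∀ x : E n H,
      EN (fun i t => mon ((gen i t).1 n) (u (gen i t))) x ≤ 2 / 1000000 * ‖x‖ ^ 2 → x = 0 := by
  obtain ⟨L, hL, hL0⟩ := ((eventually_all.2 (fun q : Ix × F =>
    hl (gen q.1 q.2) (1 / 100000) (by norm_num))).and (eventually_gt_atTop 0)).exists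
  obtain ⟨W, hW, hW2⟩ := exists_W S T ((S ^ L) (T η0)) L
  refine ⟨17 ^ (4 * Module.finrank ℂ W), fun x hx => ?_⟩
  by_contra hx0
  have hx1 : 0 < ‖x‖ ^ 2 := by positivity
  have hL1 : (0 : ℝ) < L := by exact_mod_cast hL0
  let z : ι → E (17 ^ (4 * Module.finrank ℂ W)) H := fun y =>
    WithLp.toLp 2 (fun a => VV S T η0 L (b y) (x a))
  have hz : ∀ y, 1 / 100000 * ‖z y‖ ^ 2 ≤
      EN (fun i t => mon ((gen i t).1 _) (u (gen i t))) (z y) := by
    intro y
    by_contra hc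
    have := rank_contra W u hu le_rfl (z y) (fun a => by
      simp only [z, VV, _root_.sum_apply]
      exact Submodule.sum_mem _ (fun j hj => hW2 j (mem_range.1 hj).le _ _)) (not_le.1 hc).le
    apply hc
    rw [this, norm_zero]
    simp [EN]
  have hs : HasSum (fun y => ‖z y‖ ^ 2) (L * ‖x‖ ^ 2) := by
    simp only [E_norm_sq, mul_sum]
    exact hasSum_sum (fun a _ => h.hasSum_VV b h0 L (x a))
  obtain ⟨Y, hY⟩ := (Tendsto.eventually_const_le (u := L * ‖x‖ ^ 2 / 2)
    (half_lt_self (by positivity)) hs).exists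
  have h2 : ∑ y ∈ Y, EN (fun i t => mon ((gen i t).1 _) (u (gen i t))) (z y) ≤
      ∑ i, ∑ t, (2 * L * ‖x - mon ((gen i t).1 _) (u (gen i t)) x‖ ^ 2 +
        2 * (1 / 100000) ^ 2 * L * ‖x‖ ^ 2) := by
    unfold EN
    rw [sum_comm]
    refine sum_le_sum (fun i _ => ?_)
    rw [sum_comm]
    refine sum_le_sum (fun t _ => ?_)
    simp only [sub_mon_norm_sq]
    rw [sum_comm, E_norm_sq, mul_sum, mul_sum, ← sum_add_distrib]
    refine sum_le_sum (fun a _ => ?_)
    obtain ⟨g, hg⟩ : ∃ g, g = (gen i t).1 (17 ^ (4 * Module.finrank ℂ W)) := ⟨_, rfl⟩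
    rw [← hg]
    have e : ∑ y ∈ Y, ‖z y (g.σ a) - ψ (-g.c a) • u (gen i t) (z y a)‖ ^ 2 =
        ‖col Y (fun y => VV S T η0 L (b y)) (x (g.σ a) - ψ (-g.c a) • u (gen i t) (x a)) -
          ψ (-g.c a) • col Y (fun y => u (gen i t) * VV S T η0 L (b y) -
            VV S T η0 L (b y) * u (gen i t)) (x a)‖ ^ 2 := by
      rw [PiLp.norm_sq_eq_of_L2, ← sum_coe_sort Y]
      refine sum_congr rfl (fun y _ => ?_)
      simp only [z, col, PiLp.sub_apply, PiLp.smul_apply, sub_apply, mul_apply_eq_comp, map_sub,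
        map_smul, smul_sub]
      congr 2
      abel
    rw [e]
    have a1 := h.col_VV b h0 L Y (x (g.σ a) - ψ (-g.c a) • u (gen i t) (x a))
    have a2 := hL (i, t) Y (x a)
    have a3 : ‖ψ (-g.c a) • col Y (fun y => u (gen i t) * VV S T η0 L (b y) -
        VV S T η0 L (b y) * u (gen i t)) (x a)‖ ≤ 1 / 100000 * √L * ‖x a‖ := by
      rw [norm_smul, norm_ψ, one_mul]; exact a2
    refine (pow_le_pow_left₀ (norm_nonneg _) ((norm_sub_le _ _).trans (add_le_add a1 a3)) 2).trans ?_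
    refine (add_sq_le).trans (le_of_eq ?_)
    rw [mul_pow, mul_pow, mul_pow, Real.sq_sqrt hL1.le]
    ring
  simp only [sum_add_distrib, ← mul_sum, sum_const, card_univ, ZMod.card, Fintype.card_option,
    nsmul_eq_mul] at h2
  have h3 := sum_le_sum (s := Y) (fun y _ => hz y)
  rw [← mul_sum] at h3
  unfold EN at hx
  have h4 := mul_le_mul_of_nonneg_left hx hL1.le
  have h5 := mul_pos hL1 hx1
  push_cast at h2
  nlinarith

end Col

end Vale.Agent.P083
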