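import Vale.Agent.P083.Step

/-! A separable C*-algebra in which all the relations hold. -/

namespace Vale.Agent.P083
open Finset
open scoped InnerProductSpace

lemma closure_countable {M : Type*} [Monoid M] {s : Set M} (hs : s.Countable) :
    (Submonoid.closure s : Set M).Countable := by
  have := hs.to_subtype
  refine (Set.countable_range (fun l : List s => (l.map Subtype.val).prod)).mono (fun x hx => ?_)
  induction hx using Submonoid.closure_induction with
  | mem x hx => exact ⟨[⟨x, hx⟩], by simp⟩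
  | one => exact ⟨[], rfl⟩
  | mul x y _ _ hx hy =>
    obtain ⟨l, rfl⟩ := hx
    obtain ⟨l', rfl⟩ := hy
    exact ⟨l ++ l', by simp⟩

abbrev I := (Σ n, K n) × ℕ

noncomputable abbrev H0 := lp (fun _ : I => ℂ) 2

noncomputable def dl (i : I) : H0 := lp.single 2 i 1

lemma dl_on (f : I → I) (hf : Function.Injective f) (c : I → F) :
    Orthonormal ℂ (fun i => ψ (c i) • dl (f i)) := by
  constructor
  · intro i
    simp [dl, norm_smul, lp.norm_single]
  · intro i j hij
    simp [dl, inner_smul_left, inner_smul_right, lp.inner_single_left, lp.single_apply,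
      Pi.single_eq_of_ne (hf.ne hij)]

noncomputable def mono (f : I → I) (hf : Function.Injective f) (c : I → F) : H0 →L[ℂ] H0 :=
  (dl_on f hf c).orthogonalFamily.linearIsometry.toContinuousLinearMap

lemma mono_dl (f : I → I) (hf : Function.Injective f) (c : I → F) (i : I) :
    mono f hf c (dl i) = ψ (c i) • dl (f i) :=
  ((dl_on f hf c).orthogonalFamily.linearIsometry_apply_single (i := i) 1).trans (one_smul _ _)

lemma mono_iso (f : I → I) (hf : Function.Injective f) (c : I → F) :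
    star (mono f hf c) * mono f hf c = 1 :=
  (ContinuousLinearMap.norm_map_iff_adjoint_comp_self _).1
    (dl_on f hf c).orthogonalFamily.linearIsometry.norm_map

lemma H0_ext {A B : H0 →L[ℂ] H0} (h : ∀ n χ k, A (dl (⟨n, χ⟩, k)) = B (dl (⟨n, χ⟩, k))) : A = B :=
  lp.ext_continuousLinearMap (by norm_num) (fun i => ContinuousLinearMap.ext_ring (h _ _ _))

noncomputable def uM (g : G0) : H0 →L[ℂ] H0 :=
  mono (fun i => (⟨i.1.1, (g.1 i.1.1).σ i.1.2⟩, i.2)) (by
    rintro ⟨⟨n, χ⟩, k⟩ ⟨⟨n', χ'⟩, k'⟩ h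
    simp only [Prod.mk.injEq, Sigma.mk.injEq] at h
    obtain ⟨⟨rfl, h1⟩, rfl⟩ := h
    rw [(g.1 n).σ.injective (eq_of_heq h1)]) (fun i => (g.1 i.1.1).c i.1.2)

def Kc {n : ℕ} (a : F) (χ : K n) : K (n + 1) := (a, χ)

def K0 : K 0 := ()

noncomputable def sM (a : F) : H0 →L[ℂ] H0 :=
  mono (fun i => (⟨i.1.1 + 1, Kc a i.1.2⟩, i.2)) (by
    rintro ⟨⟨n, χ⟩, k⟩ ⟨⟨n', χ'⟩, k'⟩ h
    simp only [Prod.mk.injEq, Sigma.mk.injEq, Nat.add_right_cancel_iff] at h
    obtain ⟨⟨rfl, h1⟩, rfl⟩ := h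
    rw [show χ = χ' from (Prod.ext_iff.1 (eq_of_heq h1)).2]) 0

noncomputable def enc : I → ℕ := (exists_injective_nat I).choose

noncomputable def vM : H0 →L[ℂ] H0 :=
  mono (fun i => (⟨0, K0⟩, enc i))
    (fun _ _ h => (exists_injective_nat I).choose_spec (Prod.ext_iff.1 h).2) 0

lemma uM_dl (g : G0) (n : ℕ) (χ : K n) (k : ℕ) :
    uM g (dl (⟨n, χ⟩, k)) = ψ ((g.1 n).c χ) • dl (⟨n, (g.1 n).σ χ⟩, k) := mono_dl _ _ _ _

lemma sM_dl (a : F) (n : ℕ) (χ : K n) (k : ℕ) :
    sM a (dl (⟨n, χ⟩, k)) = dl (⟨n + 1, Kc a χ⟩, k) :=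
  (mono_dl _ _ _ _).trans (by rw [Pi.zero_apply, ψ_zero, one_smul])

lemma vM_dl (i : I) : vM (dl i) = dl (⟨0, K0⟩, enc i) :=
  (mono_dl _ _ _ _).trans (by rw [Pi.zero_apply, ψ_zero, one_smul])

lemma smul_fix {c : ℂ} (h : c = 1) (x : H0) : x = c • x := by rw [h, one_smul]

lemma rel_model : ∀ j, rel uM sM vM j = 0
  | .mul g h => sub_eq_zero.2 (H0_ext (fun n χ k => by
      rw [mul_apply_eq_comp, uM_dl, uM_dl, map_smul, uM_dl, smul_smul, ← ψ_add]; rfl))
  | .one => sub_eq_zero.2 (H0_ext (fun n χ k => by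
      rw [uM_dl]; exact (congrArg (· • _) ψ_zero).trans (one_smul _ _)))
  | .iso g => sub_eq_zero.2 (mono_iso _ _ _)
  | .siso a => sub_eq_zero.2 (mono_iso _ _ _)
  | .viso => sub_eq_zero.2 (mono_iso _ _ _)
  | .ds t a => sub_eq_zero.2 (H0_ext (fun n χ k => by
      rw [smul_apply, mul_apply_eq_comp, sM_dl, uM_dl, smul_smul]
      exact smul_fix (ψ_neg_mul (t * a)) _))
  | .xs r t b c => H0_ext (fun n χ k => by
      have e : (∑ t', ψ (-(t' * c)) • uM (hD 0 t')) (dl (⟨n, χ⟩, k)) =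
          (∑ t', ψ (t' * (co 0 χ - c))) • dl (⟨n, χ⟩, k) := by
        rw [_root_.sum_apply, sum_smul]
        refine sum_congr rfl (fun t' _ => ?_)
        rw [smul_apply, uM_dl, smul_smul, ← ψ_add, mul_sub, sub_eq_neg_add]
        rfl
      rw [rel, mul_apply_eq_comp, e, map_smul, zero_apply, smul_eq_zero]
      by_cases hc : co 0 χ - c = 0
      · right
        rw [sub_eq_zero] at hc
        rw [sub_apply, mul_apply_eq_comp, mul_apply_eq_comp, sM_dl, uM_dl, uM_dl, map_smul, sM_dl,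
          ← hc]
        exact sub_self _
      · left
        have := AddChar.sum_mulShift (co 0 χ - c) (ZMod.isPrimitive_stdAddChar 17)
        rw [if_neg hc] at this
        exact_mod_cast this)
  | .gv g => sub_eq_zero.2 (H0_ext (fun n χ k => by
      rw [smul_apply, mul_apply_eq_comp, vM_dl, uM_dl, smul_smul]
      exact smul_fix (ψ_neg_mul ((g.1 0).c K0)) _))

theorem exists_model : ∃ (A : Type) (_ : CStarAlgebra A), Nontrivial A ∧
    TopologicalSpace.SeparableSpace A ∧ ∃ (u : G0 → A) (s : F → A) (v : A),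
      ∀ j, rel u s v j = 0 := by
  have hG : Countable G0 := (closure_countable Gens_countable).to_subtype
  have hn : Nontrivial H0 := ⟨dl (⟨0, K0⟩, 0), 0, norm_ne_zero_iff.1 (by simp [dl, lp.norm_single])⟩
  let X : Set (H0 →L[ℂ] H0) := Set.range uM ∪ (Set.range sM ∪ {vM})
  have hX : X.Countable :=
    (Set.countable_range _).union ((Set.countable_range _).union (Set.countable_singleton _))
  let A := (StarAlgebra.adjoin ℂ X).topologicalClosure
  have hA : IsClosed (A : Set (H0 →L[ℂ] H0)) := StarSubalgebra.isClosed_topologicalClosure _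
  have hm : ∀ x ∈ X, x ∈ A := fun x hx =>
    StarSubalgebra.le_topologicalClosure _ (StarAlgebra.subset_adjoin ℂ X hx)
  refine ⟨A, StarSubalgebra.cstarAlgebra A, inferInstance, ?_,
    fun g => ⟨uM g, hm _ (Or.inl ⟨g, rfl⟩)⟩, fun a => ⟨sM a, hm _ (Or.inr (Or.inl ⟨a, rfl⟩))⟩,
    ⟨vM, hm _ (Or.inr (Or.inr rfl))⟩, fun j => ?_⟩
  · have h1 : (X ∪ star X).Countable := hX.union (hX.preimage star_injective)
    have h2 := (closure_countable h1).isSeparable.span (R := ℂ)
    rw [← StarAlgebra.adjoin_eq_span] at h2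
    exact h2.closure.separableSpace
  · exact Subtype.ext (((rel_map A.subtype _ _ _ j).symm).trans (rel_model j))

end Vale.Agent.P083
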