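import Vale.Agent.P083.Grp

/-! There are no almost invariant intertwiners of bounded rank. -/

namespace Vale.Agent.P083
open Finset
open scoped InnerProductSpace

variable {H : Type*} [NormedAddCommGroup H] [InnerProductSpace ℂ H] {n : ℕ}

lemma orbit_card (O : Finset (K n)) (hO : O.Nonempty) (h : ∀ r, ∀ x ∈ O, sh 0 r 1 x ∈ O) :
    n + 1 ≤ 17 ^ O.card := by
  have A : ∀ m k, k + m = n → ¬ ∀ x ∈ O, co k x = 0 := by
    intro m
    induction m with
    | zero =>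
      intro k hk hz
      obtain ⟨x, hx⟩ := hO
      have := hz x hx
      rw [show k = n by omega, co_top] at this
      exact one_ne_zero this
    | succ m ih =>
      intro k hk hz
      refine ih (k + 1) (by omega) (fun x hx => ?_)
      have := hz _ (h k x hx)
      simpa [co_sh, hz x hx] using this
  have B : ∀ m k k', k < k' → k' + m = n + 1 → ¬ ∀ x ∈ O, co k x = co k' x := by
    intro m
    induction m with
    | zero =>
      intro k k' h1 h2 hz
      refine A (n - k) k (by omega) (fun x hx => ?_)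
      rw [hz x hx, show k' = n + 1 by omega, co_big]
    | succ m ih =>
      intro k k' h1 h2 hz
      by_cases hc : (k' : ZMod 3) = k
      · refine ih (k + 1) (k' + 1) (by omega) (by omega) (fun x hx => ?_)
        have := hz _ (h k x hx)
        simpa [co_sh, hz x hx, hc] using this
      · refine A (n - (k + 1)) (k + 1) (by omega) (fun x hx => ?_)
        have := hz _ (h k x hx)
        simpa [co_sh, hz x hx, hc] using this
  have := Fintype.card_le_of_injective (fun (k : Fin (n + 1)) (x : O) => co k x.1) (by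
    intro k k' hk
    by_contra hne
    rcases lt_or_gt_of_ne hne with h1 | h1
    · exact B (n + 1 - k') k k' h1 (by omega) (fun x hx => congrFun hk ⟨x, hx⟩)
    · exact B (n + 1 - k) k' k h1 (by omega) (fun x hx => (congrFun hk ⟨x, hx⟩).symm))
  simpa using this

def cj : Gn n →* Gn n where
  toFun g := ⟨g.σ, fun x => -g.c x⟩
  map_one' := Gn.ext rfl (funext fun _ => neg_zero)
  map_mul' _ _ := Gn.ext rfl (funext fun _ => neg_add _ _)

noncomputable def Φ2 (n : ℕ) : G0 →* (E n (E n ℂ) →L[ℂ] E n (E n ℂ)) where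
  toFun g := mon (g.1 n) (mon (cj (g.1 n)) 1)
  map_one' := by
    show mon (1 : Gn n) (mon (cj (1 : Gn n)) (1 : ℂ →L[ℂ] ℂ)) = 1
    rw [map_one, mon_one, mon_one]
  map_mul' g h := by
    rw [mon_mul, mon_mul, mul_one, ← map_mul]; rfl

lemma mon_one_norm (g : Gn n) (x : E n H) : ‖mon g 1 x‖ = ‖x‖ := by
  rw [← sq_eq_sq₀ (norm_nonneg _) (norm_nonneg _), mon_norm_sq, E_norm_sq]; rfl

lemma Φ2_iso (g : G0) (x : E n (E n ℂ)) : ‖Φ2 n g x‖ = ‖x‖ := by
  rw [← sq_eq_sq₀ (norm_nonneg _) (norm_nonneg _)]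
  show ‖mon _ _ x‖ ^ 2 = _
  rw [mon_norm_sq, E_norm_sq]
  simp only [mon_one_norm]

lemma Φ2_apply (g : G0) (x : E n (E n ℂ)) (a b : K n) :
    Φ2 n g x ((g.1 n).σ a) ((g.1 n).σ b) = ψ (-(g.1 n).c a) * (ψ ((g.1 n).c b) * x a b) := by
  show mon _ _ x _ _ = _
  rw [mon_apply, PiLp.smul_apply]
  have := mon_apply (cj (g.1 n)) (1 : ℂ →L[ℂ] ℂ) (x a) b
  simp only [cj, MonoidHom.coe_mk, OneHom.coe_mk, neg_neg] at this ⊢
  rw [this]; rfl

lemma inv_struct (S : E n (E n ℂ)) (h : ∀ i t, Φ2 n (gen i t) S = S) :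
    (∀ a b, a ≠ b → S a b = 0) ∧ ∀ a (N : ℕ), 17 ^ N ≤ n → N * ‖S a a‖ ^ 2 ≤ ‖S‖ ^ 2 := by
  have hX' : ∀ r t, Φ2 n (hX r t) S = S := fun r t => h (some r) t
  have hD' : ∀ k t, Φ2 n (hD k t) S = S := by
    intro k
    induction k with
    | zero => exact h none
    | succ k ih =>
      intro t
      have e : hD k t * hX k 1 = hD (k + 1) t * (hX k 1 * hD k t) := by
        have := gDX k t 1
        rw [mul_one] at this
        exact Subtype.ext this
      have := congrArg (fun g => Φ2 n g S) e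
      simp only [map_mul, mul_apply_eq_comp, hX', ih] at this
      exact this.symm
  constructor
  · intro a b hab
    by_contra hne
    refine hab (K_ext (fun k => ψ_inj ?_))
    have := Φ2_apply (hD k 1) S a b
    rw [hD'] at this
    simp only [hD, gD_σ, gD_c, one_mul] at this
    rw [← mul_assoc, eq_comm, mul_eq_right₀ hne] at this
    have h2 := ψ_neg_mul (co k a)
    rw [← this] at h2
    exact mul_left_cancel₀ (by rw [← norm_ne_zero_iff, norm_ψ]; exact one_ne_zero) h2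
  · intro a N hN
    have h1 := orbit_card (univ.filter (fun b => S b b = S a a)) ⟨a, by simp⟩ (by
      intro r x hx
      have := Φ2_apply (hX r 1) S x x
      rw [hX'] at this
      simp only [hX, gX_σ, gX_c, neg_zero, ψ_zero, one_mul] at this
      simp only [mem_filter, mem_univ, true_and] at hx ⊢
      rw [this, hx])
    have h2 : N ≤ (univ.filter (fun b => S b b = S a a)).card := by
      by_contra hc
      have := Nat.pow_le_pow_right (show 0 < 17 by norm_num) (not_le.1 hc).le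
      omega
    calc (N : ℝ) * ‖S a a‖ ^ 2 ≤ (univ.filter (fun b => S b b = S a a)).card * ‖S a a‖ ^ 2 := by
          gcongr
      _ = ∑ b ∈ univ.filter (fun b => S b b = S a a), ‖S b b‖ ^ 2 := by
          rw [sum_congr rfl (fun b hb => by rw [(mem_filter.1 hb).2]), sum_const, nsmul_eq_mul]
      _ ≤ ∑ b, ‖S b b‖ ^ 2 :=
          sum_le_sum_of_subset_of_nonneg (filter_subset _ _) (fun _ _ _ => sq_nonneg _)
      _ ≤ _ := by
          rw [E_norm_sq]
          refine sum_le_sum (fun b _ => ?_)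
          rw [E_norm_sq]
          exact single_le_sum (f := fun c => ‖S b c‖ ^ 2) (fun _ _ => sq_nonneg _) (mem_univ b)

noncomputable def tens {N : ℕ} (lam : Fin N → ℝ) (f : Fin N → E n ℂ) (w : Fin N → H) : E n H :=
  WithLp.toLp 2 (fun a => ∑ j, ((lam j : ℂ) * f j a) • w j)

lemma inner_tens {N : ℕ} (lam : Fin N → ℝ) (f : Fin N → E n ℂ) (w : Fin N → H) (g : Gn n)
    (u : H →L[ℂ] H) : ⟪tens lam f w, mon g u (tens lam f w)⟫_ℂ =
      ∑ j, ∑ l, ((lam j * lam l : ℝ) : ℂ) * (⟪f j, mon g 1 (f l)⟫_ℂ * ⟪w j, u (w l)⟫_ℂ) := by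
  simp only [PiLp.inner_apply, ← Equiv.sum_comp g.σ (fun a => ⟪_, mon g _ _ a⟫_ℂ), mon_apply]
  simp only [tens, map_sum, map_smul, smul_sum, sum_inner, inner_sum, inner_smul_left,
    inner_smul_right, sum_mul, mul_sum]
  rw [sum_comm]
  rw [sum_congr rfl (fun l _ => sum_comm), sum_comm]
  refine sum_congr rfl (fun j _ => sum_congr rfl (fun l _ => sum_congr rfl (fun a _ => ?_)))
  simp only [map_mul, Complex.conj_ofReal, one_apply_eq_self, RCLike.inner_apply]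
  push_cast
  ring

noncomputable def cv (f : E n ℂ) : E n ℂ := WithLp.toLp 2 (fun a => (starRingEnd ℂ) (f a))

lemma inner_cv (g : Gn n) (f f' : E n ℂ) :
    ⟪cv f, mon (cj g) 1 (cv f')⟫_ℂ = (starRingEnd ℂ) ⟪f, mon g 1 f'⟫_ℂ := by
  rw [PiLp.inner_apply, PiLp.inner_apply, ← Equiv.sum_comp g.σ, ← Equiv.sum_comp g.σ
    (fun a => ⟪_, mon g _ _ a⟫_ℂ), map_sum]
  refine sum_congr rfl (fun a _ => ?_)
  have := mon_apply (cj g) (1 : ℂ →L[ℂ] ℂ) (cv f') a
  simp only [cj, MonoidHom.coe_mk, OneHom.coe_mk, neg_neg] at this ⊢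
  rw [this, mon_apply]
  simp [cv, conj_ψ]

lemma svd (W : Submodule ℂ H) [FiniteDimensional ℂ W] (T : E n H) (hT : ∀ a, T a ∈ W) :
    ∃ (lam : Fin (Module.finrank ℂ W) → ℝ) (f : Fin (Module.finrank ℂ W) → E n ℂ)
      (w : Fin (Module.finrank ℂ W) → H), Orthonormal ℂ w ∧ (∀ j, 0 ≤ lam j) ∧
      (∀ j l, j ≠ l → ⟪f j, f l⟫_ℂ = 0) ∧ (∀ j, ‖f j‖ ≤ 1) ∧ (∀ j, lam j * ‖f j‖ = lam j) ∧
      T = tens lam f w := by
  let R : W →ₗ[ℂ] W :=
    { toFun := fun x => ∑ a, ⟪(⟨T a, hT a⟩ : W), x⟫_ℂ • ⟨T a, hT a⟩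
      map_add' := fun x y => by simp only [inner_add_right, add_smul, sum_add_distrib]
      map_smul' := fun c x => by
        simp only [inner_smul_right, RingHom.id_apply, smul_sum, smul_smul] }
  have hR : R.IsSymmetric := by
    intro x y
    simp only [R, LinearMap.coe_mk, AddHom.coe_mk, sum_inner, inner_sum, inner_smul_left,
      inner_smul_right, inner_conj_symm, mul_comm]
  let b := hR.eigenvectorBasis rfl
  let g : Fin (Module.finrank ℂ W) → E n ℂ := fun j =>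
    WithLp.toLp 2 (fun a => ⟪b j, (⟨T a, hT a⟩ : W)⟫_ℂ)
  have hg : ∀ j l, j ≠ l → ⟪g j, g l⟫_ℂ = 0 := by
    intro j l hjl
    have h1 : ⟪b l, R (b j)⟫_ℂ = 0 := by
      rw [hR.apply_eigenvectorBasis, inner_smul_right, b.orthonormal.2 hjl.symm, mul_zero]
    rw [← h1, PiLp.inner_apply]
    simp only [R, g, LinearMap.coe_mk, AddHom.coe_mk, inner_sum, inner_smul_right,
      RCLike.inner_apply, inner_conj_symm, mul_comm]
  refine ⟨fun j => ‖g j‖, fun j => ((‖g j‖⁻¹ : ℝ) : ℂ) • g j, fun j => b j,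
    b.orthonormal.comp_linearIsometry W.subtypeₗᵢ, fun j => norm_nonneg _, ?_, ?_, ?_, ?_⟩
  · intro j l hjl
    rw [inner_smul_left, inner_smul_right, hg j l hjl, mul_zero, mul_zero]
  · intro j
    rw [norm_smul, Complex.norm_real, norm_inv, norm_norm]
    exact inv_mul_le_one_of_le₀ le_rfl (norm_nonneg _)
  · intro j
    rw [norm_smul, Complex.norm_real, norm_inv, norm_norm, ← mul_assoc, mul_inv_mul_cancel]
  · ext a
    have h1 := congrArg Subtype.val (b.sum_repr' ⟨T a, hT a⟩)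
    simp only [Submodule.coe_sum, Submodule.coe_smul] at h1
    rw [← h1]
    refine sum_congr rfl (fun j _ => ?_)
    congr 1
    by_cases h0 : g j = 0
    · have : g j a = 0 := by rw [h0]; rfl
      beta_reduce
      rw [h0]; simpa using! this
    · have : (‖g j‖ : ℂ) ≠ 0 := by exact_mod_cast norm_ne_zero_iff.2 h0
      simp only [PiLp.smul_apply, smul_eq_mul]
      push_cast
      rw [← mul_assoc, mul_inv_cancel₀ this, one_mul]

lemma sum_coef_le [CompleteSpace H] {N : ℕ} (lam : Fin N → ℝ) (w : Fin N → H)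
    (hw : Orthonormal ℂ w) (u : H →L[ℂ] H) :
    ∑ j, ∑ l, lam j * lam l * ‖⟪w j, u (w l)⟫_ℂ‖ ^ 2 ≤ ‖u‖ ^ 2 * ∑ j, lam j ^ 2 := by
  have B : ∀ (v : H →L[ℂ] H) l, ∑ j, ‖⟪w j, v (w l)⟫_ℂ‖ ^ 2 ≤ ‖v‖ ^ 2 := by
    intro v l
    refine (hw.sum_inner_products_le (v (w l))).trans ?_
    have := v.le_opNorm (w l)
    rw [hw.1 l, mul_one] at this
    gcongr
  have h1 : ∑ j, ∑ l, lam l ^ 2 * ‖⟪w j, u (w l)⟫_ℂ‖ ^ 2 ≤ ‖u‖ ^ 2 * ∑ j, lam j ^ 2 := by
    rw [sum_comm, mul_sum]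
    refine sum_le_sum (fun l _ => ?_)
    rw [← mul_sum, mul_comm]
    exact mul_le_mul_of_nonneg_right (B u l) (sq_nonneg _)
  have h2 : ∑ j, ∑ l, lam j ^ 2 * ‖⟪w j, u (w l)⟫_ℂ‖ ^ 2 ≤ ‖u‖ ^ 2 * ∑ j, lam j ^ 2 := by
    rw [mul_sum]
    refine sum_le_sum (fun j _ => ?_)
    rw [← mul_sum, mul_comm]
    refine mul_le_mul_of_nonneg_right ?_ (sq_nonneg _)
    have := B (ContinuousLinearMap.adjoint u) j
    rw [LinearIsometryEquiv.norm_map] at this
    refine le_trans (le_of_eq (sum_congr rfl (fun l _ => ?_))) this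
    rw [ContinuousLinearMap.adjoint_inner_right, norm_inner_symm]
  have h3 : ∑ j, ∑ l, lam j * lam l * ‖⟪w j, u (w l)⟫_ℂ‖ ^ 2 ≤
      ∑ j, ∑ l, (1 / 2 * (lam l ^ 2 * ‖⟪w j, u (w l)⟫_ℂ‖ ^ 2) +
        1 / 2 * (lam j ^ 2 * ‖⟪w j, u (w l)⟫_ℂ‖ ^ 2)) :=
    sum_le_sum (fun j _ => sum_le_sum (fun l _ => by
      nlinarith [mul_nonneg (sq_nonneg (lam j - lam l)) (sq_nonneg ‖⟪w j, u (w l)⟫_ℂ‖)]))
  simp only [sum_add_distrib, ← mul_sum] at h3
  simp only [← mul_sum] at h1 h2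
  linarith

lemma tens_norm_sq {N : ℕ} (lam : Fin N → ℝ) (f : Fin N → E n ℂ) (w : Fin N → H)
    (hf : ∀ j l, j ≠ l → ⟪f j, f l⟫_ℂ = 0) :
    ‖tens lam f w‖ ^ 2 = ∑ j, (lam j * ‖f j‖ * ‖w j‖) ^ 2 := by
  have := inner_tens lam f w 1 1
  rw [mon_one, mon_one] at this
  simp only [one_apply_eq_self] at this
  rw [← re_inner_self, this, Complex.re_sum]
  refine sum_congr rfl (fun j _ => ?_)
  rw [sum_eq_single j (fun l _ hl => by rw [hf j l hl.symm]; simp) (by simp),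
    inner_self_eq_norm_sq_to_K, inner_self_eq_norm_sq_to_K]
  simp only [Complex.coe_algebraMap]
  norm_cast
  ring

lemma norm_cv (f : E n ℂ) : ‖cv f‖ = ‖f‖ := by
  rw [← sq_eq_sq₀ (norm_nonneg _) (norm_nonneg _), E_norm_sq, E_norm_sq]
  simp [cv]

theorem rank_contra [CompleteSpace H] (W : Submodule ℂ H) [FiniteDimensional ℂ W]
    (u : G0 → H →L[ℂ] H) (hu : ∀ i t, ‖u (gen i t)‖ ^ 2 ≤ 1 + 1 / 1000)
    (hn : 17 ^ (4 * Module.finrank ℂ W) ≤ n) (T : E n H) (hT : ∀ a, T a ∈ W)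
    (hE : EN (fun i t => mon ((gen i t).1 n) (u (gen i t))) T ≤ 1 / 100000 * ‖T‖ ^ 2) :
    T = 0 := by
  obtain ⟨lam, f, w, hw, h0, h1, h2, h3, rfl⟩ := svd W T hT
  obtain ⟨S, hS⟩ : ∃ S, S = tens lam f (fun j => cv (f j)) := ⟨_, rfl⟩
  have nT : ‖tens lam f w‖ ^ 2 = ∑ j, lam j ^ 2 := by
    rw [tens_norm_sq _ _ _ h1]; simp only [h3, hw.1, mul_one]
  have nS : ‖S‖ ^ 2 = ∑ j, lam j ^ 2 := by
    rw [hS, tens_norm_sq _ _ _ h1]; simp only [h3, norm_cv]
  have key : ∀ i t, ‖S - Φ2 n (gen i t) S‖ ^ 2 ≤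
      2000 * ‖tens lam f w - mon ((gen i t).1 n) (u (gen i t)) (tens lam f w)‖ ^ 2 +
        4 / 1000 * ∑ j, lam j ^ 2 := by
    intro i t
    obtain ⟨g, hg⟩ : ∃ g, g = (gen i t).1 n := ⟨_, rfl⟩
    have a1 : (⟪S, Φ2 n (gen i t) S⟫_ℂ).re =
        ∑ j, ∑ l, lam j * lam l * ‖⟪f j, mon g 1 (f l)⟫_ℂ‖ ^ 2 := by
      show (⟪S, mon _ _ S⟫_ℂ).re = _
      rw [hS, inner_tens, ← hg]
      simp only [inner_cv, Complex.mul_conj, Complex.normSq_eq_norm_sq, Complex.re_sum,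
        ← Complex.ofReal_mul, Complex.ofReal_re]
    have a2 : (⟪tens lam f w, mon g (u (gen i t)) (tens lam f w)⟫_ℂ).re ≤
        ∑ j, ∑ l, (1 / 2 * (lam j * lam l * ‖⟪f j, mon g 1 (f l)⟫_ℂ‖ ^ 2) +
          1 / 2 * (lam j * lam l * ‖⟪w j, u (gen i t) (w l)⟫_ℂ‖ ^ 2)) := by
      rw [inner_tens]
      simp only [Complex.re_sum, Complex.re_ofReal_mul]
      refine sum_le_sum (fun j _ => sum_le_sum (fun l _ => ?_))
      have b1 := Complex.re_le_norm (⟪f j, mon g 1 (f l)⟫_ℂ * ⟪w j, u (gen i t) (w l)⟫_ℂ)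
      rw [norm_mul] at b1
      have b2 := mul_nonneg (h0 j) (h0 l)
      nlinarith [mul_nonneg b2 (sq_nonneg (‖⟪f j, mon g 1 (f l)⟫_ℂ‖ -
        ‖⟪w j, u (gen i t) (w l)⟫_ℂ‖)), mul_le_mul_of_nonneg_left b1 b2]
    simp only [sum_add_distrib, ← mul_sum] at a2
    have a3 := sum_coef_le lam w hw (u (gen i t))
    have a4 := re_inner_le (tens lam f w)
      (tens lam f w - mon g (u (gen i t)) (tens lam f w))
    rw [inner_sub_right, Complex.sub_re, re_inner_self] at a4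
    have a5 : 0 ≤ ∑ j, lam j ^ 2 := sum_nonneg (fun _ _ => sq_nonneg _)
    have a6 := mul_le_mul_of_nonneg_right (hu i t) a5
    rw [norm_sub_sq', Φ2_iso, a1, nS, ← hg]
    nlinarith [sq_nonneg (‖tens lam f w‖ -
      1000 * ‖tens lam f w - mon g (u (gen i t)) (tens lam f w)‖)]
  have hES : EN (fun i t => Φ2 n (gen i t)) S ≤ 3 / 10 * ∑ j, lam j ^ 2 := by
    refine (sum_le_sum (fun i _ => sum_le_sum (fun t _ => key i t))).trans ?_
    simp only [sum_add_distrib, ← mul_sum, sum_const, card_univ, ZMod.card, Fintype.card_option,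
      nsmul_eq_mul]
    unfold EN at hE
    rw [nT] at hE
    have a5 : 0 ≤ ∑ j, lam j ^ 2 := sum_nonneg (fun _ _ => sq_nonneg _)
    push_cast
    linarith
  obtain ⟨S0, b1, b2⟩ := (gapData_of (Φ2 n) Φ2_iso).near_inv S
  obtain ⟨c1, c2⟩ := inv_struct S0 b1
  have c3 : (⟪S, S0⟫_ℂ).re ≤ ∑ j, ∑ a, ‖f j a‖ ^ 2 * (1 / 4 * lam j ^ 2 + ‖S0 a a‖ ^ 2) := by
    rw [sum_comm, PiLp.inner_apply, Complex.re_sum]
    refine sum_le_sum (fun a _ => ?_)
    rw [PiLp.inner_apply, sum_eq_single a (fun b _ hb => by rw [c1 a b hb.symm, inner_zero_right])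
      (by simp)]
    refine (re_inner_le _ _).trans ?_
    have : S a a = ∑ j, ((lam j : ℂ) * f j a) * (starRingEnd ℂ) (f j a) := by
      rw [hS]; simp [tens, cv]
    rw [this]
    refine (mul_le_mul_of_nonneg_right (norm_sum_le _ _) (norm_nonneg _)).trans ?_
    rw [sum_mul]
    refine sum_le_sum (fun j _ => ?_)
    rw [norm_mul, norm_mul, Complex.norm_real, Real.norm_of_nonneg (h0 j), RCLike.norm_conj]
    nlinarith [mul_nonneg (sq_nonneg ‖f j a‖) (sq_nonneg (lam j / 2 - ‖S0 a a‖))]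
  have c4 : ∀ j, ∑ a, ‖f j a‖ ^ 2 * (1 / 4 * lam j ^ 2 + ‖S0 a a‖ ^ 2) ≤
      1 / 4 * lam j ^ 2 + ‖S0‖ ^ 2 / (4 * Module.finrank ℂ W) := by
    intro j
    have hN : (0 : ℝ) < Module.finrank ℂ W := by exact_mod_cast j.pos
    have d1 : ∀ a, ‖S0 a a‖ ^ 2 ≤ ‖S0‖ ^ 2 / (4 * Module.finrank ℂ W) := fun a => by
      have := c2 a _ hn
      rw [le_div_iff₀ (by positivity)]
      push_cast at this
      linarith
    calc _ ≤ ∑ a, ‖f j a‖ ^ 2 * (1 / 4 * lam j ^ 2 + ‖S0‖ ^ 2 / (4 * Module.finrank ℂ W)) := by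
          gcongr with a; exact d1 a
      _ ≤ _ := by
          rw [← sum_mul, ← E_norm_sq]
          exact mul_le_of_le_one_left (by positivity) (pow_le_one₀ (norm_nonneg _) (h2 j))
  have c5 := c3.trans (sum_le_sum (fun j _ => c4 j))
  rw [sum_add_distrib, ← mul_sum, sum_const, card_univ, Fintype.card_fin, nsmul_eq_mul] at c5
  have c6 : (Module.finrank ℂ W : ℝ) * (‖S0‖ ^ 2 / (4 * Module.finrank ℂ W)) ≤ ‖S0‖ ^ 2 / 4 := by
    rcases Nat.eq_zero_or_pos (Module.finrank ℂ W) with h | h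
    · rw [h]; simp only [Nat.cast_zero, zero_mul]; positivity
    · have hN : (0 : ℝ) < Module.finrank ℂ W := by exact_mod_cast h
      exact le_of_eq (by field_simp)
  rw [norm_sub_sq', nS] at b2
  rw [← norm_eq_zero, ← pow_eq_zero_iff two_ne_zero]
  refine le_antisymm ?_ (sq_nonneg _)
  rw [nT]
  nlinarith [sq_nonneg ‖S0‖]

end Vale.Agent.P083
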