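import Vale.Agent.P083.Ultra
import Vale.Agent.P083.Local

/-! The relations, the induction step, and the absence of asymptotic models. -/

namespace Vale.Agent.P083
open Finset Filter Topology
open scoped InnerProductSpace

inductive J
  | mul (g h : G0)
  | one
  | iso (g : G0)
  | siso (a : F)
  | viso
  | ds (t a : F)
  | xs (r : ZMod 3) (t b c : F)
  | gv (g : G0)

noncomputable def rel {R : Type*} [Ring R] [Algebra ℂ R] [Star R] (u : G0 → R) (s : F → R)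
    (v : R) : J → R
  | .mul g h => u (g * h) - u g * u h
  | .one => u 1 - 1
  | .iso g => star (u g) * u g - 1
  | .siso a => star (s a) * s a - 1
  | .viso => star v * v - 1
  | .ds t a => s a - ψ (-(t * a)) • (u (hD 0 t) * s a)
  | .xs r t b c => (u (hX r t) * s b - s (b + if r = 0 then t * c else 0) * u (hX (r - 1) t)) *
      ∑ t', ψ (-(t' * c)) • u (hD 0 t')
  | .gv g => v - ψ (-(g.1 0).c ()) • (u g * v)

lemma rel_map {R R' : Type*} [Ring R] [Algebra ℂ R] [Star R] [Ring R'] [Algebra ℂ R'] [Star R']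
    (f : R →⋆ₐ[ℂ] R') (u : G0 → R) (s : F → R) (v : R) (j : J) :
    rel (fun g => f (u g)) (fun a => f (s a)) (f v) j = f (rel u s v j) := by
  cases j <;> simp only [rel, map_sub, map_mul, map_one, map_star, map_smul, map_sum]

universe w

variable {H : Type w} [NormedAddCommGroup H] [InnerProductSpace ℂ H] [CompleteSpace H] {n : ℕ}

lemma near_iso (a : H →L[ℂ] H) (x : H) :
    |‖a x‖ ^ 2 - ‖x‖ ^ 2| ≤ ‖star a * a - 1‖ * ‖x‖ ^ 2 := by
  have : ‖a x‖ ^ 2 - ‖x‖ ^ 2 = (⟪x, (star a * a - 1) x⟫_ℂ).re := by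
    rw [sub_apply, inner_sub_right, ← inner_star, one_apply_eq_self, Complex.sub_re,
      re_inner_self, re_inner_self]
  rw [this]
  refine (Complex.abs_re_le_norm _).trans ((norm_inner_le_norm _ _).trans ?_)
  calc _ ≤ ‖x‖ * (‖star a * a - 1‖ * ‖x‖) := by gcongr; exact ContinuousLinearMap.le_opNorm _ _
    _ = _ := by ring

lemma norm_sq_le_of (a : H →L[ℂ] H) : ‖a‖ ^ 2 ≤ 1 + ‖star a * a - 1‖ := by
  rw [sq, ← CStarRing.norm_star_mul_self]
  have h1 : ‖(1 : H →L[ℂ] H)‖ ≤ 1 := ContinuousLinearMap.norm_id_le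
  have h2 := norm_add_le (star a * a - 1) 1
  rw [sub_add_cancel] at h2
  linarith

structure Good (u : G0 → H →L[ℂ] H) (s : F → H →L[ℂ] H) (v : H →L[ℂ] H) : Prop where
  iso : ∀ q : Ix × F, ‖rel u s v (.iso (gen q.1 q.2))‖ ≤ 1 / 100000
  siso : ∀ a, ‖rel u s v (.siso a)‖ ≤ 1 / 100000
  viso : ‖rel u s v .viso‖ ≤ 1 / 100000
  ds : ∀ q : F × F, ‖rel u s v (.ds q.1 q.2)‖ ≤ 1 / 100000
  xs : ∀ q : (ZMod 3 × F) × F × F, ‖rel u s v (.xs q.1.1 q.1.2 q.2.1 q.2.2)‖ ≤ 1 / 100000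
  gv : ∀ q : Ix × F, ‖rel u s v (.gv (gen q.1 q.2))‖ ≤ 1 / 100000

noncomputable def term (u : G0 → H →L[ℂ] H) (x : E n H) (χ : K n) (i : Ix) (t : F) : ℝ :=
  ‖x (((gen i t).1 n).σ χ) - ψ (-((gen i t).1 n).c χ) • u (gen i t) (x χ)‖

noncomputable def loc (u : G0 → H →L[ℂ] H) (x : E n H) (χ : K n) : ℝ :=
  ∑ i, ∑ t, term u x χ i t ^ 2

omit [CompleteSpace H] in
lemma EN_loc (u : G0 → H →L[ℂ] H) (x : E n H) :
    EN (fun i t => mon ((gen i t).1 n) (u (gen i t))) x = ∑ χ, loc u x χ := by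
  unfold EN loc
  simp only [sub_mon_norm_sq]
  rw [sum_comm (s := (univ : Finset (K n)))]
  exact sum_congr rfl (fun i _ => sum_comm)

omit [CompleteSpace H] in
lemma loc_nonneg (u : G0 → H →L[ℂ] H) (x : E n H) (χ : K n) : 0 ≤ loc u x χ :=
  sum_nonneg (fun _ _ => sum_nonneg (fun _ _ => sq_nonneg _))

omit [CompleteSpace H] in
lemma term_le (u : G0 → H →L[ℂ] H) (x : E n H) (χ : K n) (i : Ix) (t : F) :
    term u x χ i t ≤ √(loc u x χ) := by
  refine Real.le_sqrt_of_sq_le ?_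
  exact (single_le_sum (f := fun t => term u x χ i t ^ 2) (fun _ _ => sq_nonneg _)
    (mem_univ t)).trans (single_le_sum (f := fun i => ∑ t, term u x χ i t ^ 2)
      (fun _ _ => sum_nonneg (fun _ _ => sq_nonneg _)) (mem_univ i))

lemma sum_K (f : K (n + 1) → ℝ) : ∑ p, f p = ∑ a : F, ∑ χ : K n, f (a, χ) :=
  Fintype.sum_prod_type (f : F × K n → ℝ)

def Inv (u : G0 → H →L[ℂ] H) (n : ℕ) : Prop := ∃ x : E n H, x ≠ 0 ∧
  EN (fun i t => mon ((gen i t).1 n) (u (gen i t))) x ≤ 2 / 1000000 * ‖x‖ ^ 2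

variable {u : G0 → H →L[ℂ] H} {s : F → H →L[ℂ] H} {v : H →L[ℂ] H}

lemma Good.base (h : Good u s v) {η : H} (hη : ‖η‖ = 1) : Inv u 0 := by
  let x : E 0 H := WithLp.toLp 2 (fun _ => v η)
  have h1 : 1 / 2 ≤ ‖x‖ ^ 2 := by
    have e : ‖x‖ ^ 2 = ‖v η‖ ^ 2 := by
      rw [E_norm_sq]; exact Fintype.sum_unique (ι := Unit) _
    have h2 := (abs_le.1 (near_iso v η)).1
    have h3 : ‖star v * v - 1‖ ≤ 1 / 100000 := h.viso
    rw [hη] at h2
    linarith
  refine ⟨x, fun h0 => by rw [h0, norm_zero] at h1; norm_num at h1, ?_⟩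
  have h2 : ∀ i t, term u x () i t ^ 2 ≤ (1 / 100000) ^ 2 := by
    intro i t
    refine pow_le_pow_left₀ (norm_nonneg _) ?_ 2
    have := (rel u s v (.gv (gen i t))).le_of_opNorm_le (h.gv (i, t)) η
    rw [hη, mul_one] at this
    exact this
  have h3 : loc u x () ≤ ∑ _i : Ix, ∑ _t : F, (1 / 100000 : ℝ) ^ 2 :=
    sum_le_sum (fun i _ => sum_le_sum (fun t _ => h2 i t))
  simp only [sum_const, card_univ, ZMod.card, Fintype.card_option, nsmul_eq_mul] at h3
  rw [EN_loc, show ∑ χ, loc u x χ = loc u x () from Fintype.sum_unique (ι := Unit) _]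
  push_cast at h3
  linarith

lemma Good.step (h : Good u s v) (ξ : E n H) (h2 : 1 / 2 ≤ ‖ξ‖ ^ 2)
    (h1 : EN (fun i t => mon ((gen i t).1 n) (u (gen i t))) ξ ≤ 1 / 100000000000) :
    Inv u (n + 1) := by
  let x : E (n + 1) H := WithLp.toLp 2 (fun p => s p.1 (ξ p.2))
  have hs : ∀ a, ‖s a‖ ≤ 2 := fun a => by
    have h3 := norm_sq_le_of (s a)
    have h4 : ‖star (s a) * s a - 1‖ ≤ 1 / 100000 := h.siso a
    nlinarith [norm_nonneg (s a)]
  have hu : ∀ r t, ‖u (hX r t)‖ ≤ 2 := fun r t => by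
    have h3 := norm_sq_le_of (u (hX r t))
    have h4 : ‖star (u (hX r t)) * u (hX r t) - 1‖ ≤ 1 / 100000 := h.iso (some r, t)
    nlinarith [norm_nonneg (u (hX r t))]
  have a1 : 17 / 2 * ‖ξ‖ ^ 2 ≤ ‖x‖ ^ 2 := by
    have : ∑ _a : F, ∑ χ : K n, 1 / 2 * ‖ξ χ‖ ^ 2 ≤ ‖x‖ ^ 2 := by
      rw [E_norm_sq, sum_K]
      refine sum_le_sum (fun a _ => sum_le_sum (fun χ _ => ?_))
      have h3 := (abs_le.1 (near_iso (s a) (ξ χ))).1
      have h4 : ‖star (s a) * s a - 1‖ ≤ 1 / 100000 := h.siso a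
      show _ ≤ ‖s a (ξ χ)‖ ^ 2
      nlinarith [sq_nonneg ‖ξ χ‖]
    simp only [← mul_sum, ← E_norm_sq, sum_const, card_univ, ZMod.card, nsmul_eq_mul] at this
    push_cast at this
    linarith
  have a2 : ∀ (b : F) (χ : K n) i t,
      term u x (b, χ) i t ≤ 10 * √(loc u ξ χ) + 1 / 100000 * ‖ξ χ‖ := by
    rintro b χ (_ | r) t
    · have := (rel u s v (.ds t b)).le_of_opNorm_le (h.ds (t, b)) (ξ χ)
      exact le_trans this (le_add_of_nonneg_left (by positivity))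
    · obtain ⟨b', hb'⟩ : ∃ b', b' = b + if r = 0 then t * co 0 χ else 0 := ⟨_, rfl⟩
      obtain ⟨k, hk⟩ : ∃ k, k = u (hX r t) * s b - s b' * u (hX (r - 1) t) := ⟨_, rfl⟩
      have k1 : ‖k‖ ≤ 8 := by
        rw [hk]
        refine (norm_sub_le _ _).trans ?_
        have c1 := norm_mul_le_of_le (hu r t) (hs b)
        have c2 := norm_mul_le_of_le (hs b') (hu (r - 1) t)
        linarith
      have k2 := (rel u s v (.xs r t b (co 0 χ))).le_of_opNorm_le (h.xs ((r, t), b, co 0 χ)) (ξ χ)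
      simp only [rel, ← hb', ← hk] at k2
      have k3 : (17 : ℂ) • k (ξ χ) =
          ∑ t', k (ξ χ - ψ (-(t' * co 0 χ)) • u (hD 0 t') (ξ χ)) +
            (k * ∑ t', ψ (-(t' * co 0 χ)) • u (hD 0 t')) (ξ χ) := by
        simp only [map_sub, sum_sub_distrib, mul_apply_eq_comp, _root_.sum_apply, smul_apply,
          map_sum, sub_add_cancel, sum_const, card_univ, ZMod.card]
        rw [← Nat.cast_smul_eq_nsmul ℂ]
        rfl
      have k4 : ‖∑ t', k (ξ χ - ψ (-(t' * co 0 χ)) • u (hD 0 t') (ξ χ))‖ ≤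
          ∑ _t : F, 8 * √(loc u ξ χ) :=
        norm_sum_le_of_le _ (fun t' _ => k.le_of_opNorm_le_of_le k1 (term_le u ξ χ none t'))
      have k5 := (congrArg norm k3).le.trans (norm_add_le_of_le k4 k2)
      simp only [sum_const, card_univ, ZMod.card, nsmul_eq_mul, norm_smul, Complex.norm_ofNat] at k5
      have k6 := (s b').le_of_opNorm_le_of_le (hs b') (term_le u ξ χ (some (r - 1)) t)
      have k7 : term u x (b, χ) (some r) t = ‖s b' (ξ (((gen (some (r - 1)) t).1 n).σ χ) -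
          ψ (-((gen (some (r - 1)) t).1 n).c χ) • u (gen (some (r - 1)) t) (ξ χ)) - k (ξ χ)‖ := by
        show ‖s (b + if r = 0 then t * co 0 χ else 0) (ξ (sh 0 (r - 1) t χ)) -
          ψ (-0) • u (hX r t) (s b (ξ χ))‖ = ‖s b' (ξ (sh 0 (r - 1) t χ) -
          ψ (-0) • u (hX (r - 1) t) (ξ χ)) - k (ξ χ)‖
        rw [← hb', hk]
        simp only [neg_zero, ψ_zero, one_smul, map_sub, sub_apply, mul_apply_eq_comp]
        congr 1
        abel
      rw [k7]
      refine (norm_sub_le _ _).trans ?_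
      push_cast at k5
      have := norm_nonneg (ξ χ)
      linarith
  have a3 : ∀ (b : F) (χ : K n),
      loc u x (b, χ) ≤ 68 * (200 * loc u ξ χ + 2 * (1 / 100000) ^ 2 * ‖ξ χ‖ ^ 2) := by
    intro b χ
    have : loc u x (b, χ) ≤
        ∑ _i : Ix, ∑ _t : F, (200 * loc u ξ χ + 2 * (1 / 100000) ^ 2 * ‖ξ χ‖ ^ 2) := by
      refine sum_le_sum (fun i _ => sum_le_sum (fun t _ => ?_))
      refine (pow_le_pow_left₀ (norm_nonneg _) (a2 b χ i t) 2).trans (add_sq_le.trans ?_)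
      rw [mul_pow, Real.sq_sqrt (loc_nonneg u ξ χ)]
      exact le_of_eq (by ring)
    simp only [sum_const, card_univ, ZMod.card, Fintype.card_option, nsmul_eq_mul] at this
    push_cast at this
    linarith
  refine ⟨x, fun h0 => by rw [h0, norm_zero] at a1; linarith, ?_⟩
  rw [EN_loc] at h1 ⊢
  rw [sum_K]
  refine (sum_le_sum (fun b _ => sum_le_sum (fun χ _ => a3 b χ))).trans ?_
  simp only [← mul_sum, sum_add_distrib, ← E_norm_sq, sum_const, card_univ, ZMod.card,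
    nsmul_eq_mul]
  push_cast
  linarith

theorem no_asym {S T : H →L[ℂ] H} (hc : Cuntz S T) {ι : Type*} (b : HilbertBasis ι ℂ H) {η0 : H}
    (h0 : ‖η0‖ = 1) (ω : Ultrafilter ℕ) (u : ℕ → G0 → H →L[ℂ] H) (s : ℕ → F → H →L[ℂ] H)
    (v : ℕ → H →L[ℂ] H) (hl : ∀ m g, Loc S T b η0 (u m g)) (hb : ∀ g, ∃ C, ∀ m, ‖u m g‖ ≤ C)
    (hr : ∀ j, Tendsto (fun m => ‖rel (u m) (s m) (v m) j‖) ω (𝓝 0)) : False := by
  have e : ∀ j, ∀ᶠ m in ω, ‖rel (u m) (s m) (v m) j‖ ≤ 1 / 100000 :=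
    fun j => (hr j).eventually_le_const (by norm_num)
  have hg : ∀ᶠ m in ω, Good (u m) (s m) (v m) := by
    filter_upwards [eventually_all.2 (fun q : Ix × F => e (.iso (gen q.1 q.2))),
      eventually_all.2 (fun a => e (.siso a)), e .viso,
      eventually_all.2 (fun q : F × F => e (.ds q.1 q.2)),
      eventually_all.2 (fun q : (ZMod 3 × F) × F × F => e (.xs q.1.1 q.1.2 q.2.1 q.2.2)),
      eventually_all.2 (fun q : Ix × F => e (.gv (gen q.1 q.2)))] with m h1 h2 h3 h4 h5 h6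
    exact ⟨h1, h2, h3, h4, h5, h6⟩
  have key : ∀ m, ∃ (ν : ℕ) (x : E ν H), ‖x‖ ≤ 1 ∧ (Good (u m) (s m) (v m) → ¬ Inv (u m) (ν + 1) ∧
      ‖x‖ = 1 ∧ EN (fun i t => mon ((gen i t).1 ν) (u m (gen i t))) x ≤ 1 / 4) := by
    intro m
    by_cases hm : Good (u m) (s m) (v m)
    · obtain ⟨N, hN⟩ := hc.no_inv b h0 (u m) (fun i t => by
        have h3 := norm_sq_le_of (u m (gen i t))
        have h4 : ‖star (u m (gen i t)) * u m (gen i t) - 1‖ ≤ 1 / 100000 := hm.iso (i, t)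
        linarith) (hl m)
      have : ∃ ν, Inv (u m) ν ∧ ¬ Inv (u m) (ν + 1) := by
        by_contra hn
        push Not at hn
        obtain ⟨x, h1, h2⟩ : Inv (u m) N := Nat.rec (hm.base h0) hn N
        exact h1 (hN x h2)
      obtain ⟨ν, ⟨x, h1, h2⟩, h3⟩ := this
      have h4 : 0 < ‖x‖ := norm_pos_iff.2 h1
      have h5 : ‖((‖x‖⁻¹ : ℝ) : ℂ) • x‖ = 1 := by
        rw [norm_smul, Complex.norm_real, norm_inv, norm_norm, inv_mul_cancel₀ h4.ne']
      refine ⟨ν, ((‖x‖⁻¹ : ℝ) : ℂ) • x, h5.le, fun _ => ⟨h3, h5, ?_⟩⟩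
      unfold EN at h2 ⊢
      simp only [map_smul, ← smul_sub, norm_smul, Complex.norm_real, norm_inv, norm_norm, mul_pow,
        ← mul_sum]
      rw [inv_pow, inv_mul_le_iff₀ (by positivity)]
      nlinarith [sq_nonneg ‖x‖]
    · exact ⟨0, 0, by simp, fun h => absurd h hm⟩
  choose ν x h1 h2 using key
  obtain ⟨y, hy⟩ := ultra_improve (ω := ω) (Em := fun m => E (ν m) H)
    (fun m g => mon (g.1 (ν m)) (u m g))
    (fun g => (hb g).imp (fun C hC m => (mon_norm_le _ _).trans (hC m)))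
    (fun g h => squeeze_zero (fun _ => norm_nonneg _) (fun m => by
      rw [mon_mul]
      exact (congrArg norm (mon_sub _ _ _)).le.trans (mon_norm_le _ _)) (hr (.mul g h)))
    (squeeze_zero (fun _ => norm_nonneg _) (fun m => by
      rw [← mon_one]
      exact (congrArg norm (mon_sub _ _ _)).le.trans (mon_norm_le _ _)) (hr .one))
    (fun g => ⟨_, hr (.iso g), fun m z => by
      rw [mon_norm_sq, E_norm_sq, ← sum_sub_distrib, mul_sum]
      exact (abs_sum_le_sum_abs _ _).trans (sum_le_sum (fun a _ => near_iso _ _))⟩)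
    x h1 (hg.mono (fun m hm => (h2 m hm).2)) (η := 1 / 100000000000) (by norm_num)
  obtain ⟨m, hm, h3, h4⟩ := (hg.and hy).exists
  exact (h2 m hm).1 (hm.step (y m) h4 h3)

end Vale.Agent.P083
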