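import Vale.Agent.P083.Grp

/-! Error correction for asymptotic representations through an ultraproduct of inner product
spaces. -/

namespace Vale.Agent.P083
open Finset Filter Topology
open scoped InnerProductSpace

universe u

variable (ω : Ultrafilter ℕ) (Em : ℕ → Type u) [∀ m, NormedAddCommGroup (Em m)]
  [∀ m, InnerProductSpace ℂ (Em m)]

def BSeq : Submodule ℂ (∀ m, Em m) where
  carrier := {x | ∃ C : ℝ, ∀ m, ‖x m‖ ≤ C}
  add_mem' := fun ⟨C, h⟩ ⟨C', h'⟩ => ⟨C + C', fun m => norm_add_le_of_le (h m) (h' m)⟩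
  zero_mem' := ⟨0, fun m => by simp⟩
  smul_mem' := fun c x ⟨C, h⟩ => ⟨‖c‖ * C, fun m => by
    rw [Pi.smul_apply, norm_smul]; exact mul_le_mul_of_nonneg_left (h m) (norm_nonneg _)⟩

def Pre (_ : Ultrafilter ℕ) : Type u := BSeq Em

instance : AddCommGroup (Pre Em ω) := inferInstanceAs (AddCommGroup (BSeq Em))
instance : Module ℂ (Pre Em ω) := inferInstanceAs (Module ℂ (BSeq Em))

variable {ω Em}

def Pre.val (x : Pre Em ω) : ∀ m, Em m := Subtype.val x

lemma Pre.bdd (x : Pre Em ω) : ∃ C : ℝ, ∀ m, ‖x.val m‖ ≤ C := Subtype.property x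

lemma exists_lim (x y : Pre Em ω) :
    ∃ c, Tendsto (fun m => ⟪x.val m, y.val m⟫_ℂ) ω (𝓝 c) := by
  obtain ⟨C, hC⟩ := x.bdd
  obtain ⟨C', hC'⟩ := y.bdd
  obtain ⟨c, _, hc⟩ := (isCompact_closedBall (0 : ℂ) (C * C')).ultrafilter_le_nhds
    (ω.map (fun m => ⟪x.val m, y.val m⟫_ℂ)) (by
      rw [Ultrafilter.coe_map, le_principal_iff, Filter.mem_map]
      refine univ_mem' (fun m => ?_)
      simp only [Set.mem_preimage, mem_closedBall_zero_iff]
      exact (norm_inner_le_norm _ _).trans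
        (mul_le_mul (hC m) (hC' m) (norm_nonneg _) ((norm_nonneg _).trans (hC m))))
  exact ⟨c, hc⟩

noncomputable def ip (x y : Pre Em ω) : ℂ := (exists_lim x y).choose

lemma ip_spec (x y : Pre Em ω) : Tendsto (fun m => ⟪x.val m, y.val m⟫_ℂ) ω (𝓝 (ip x y)) :=
  (exists_lim x y).choose_spec

noncomputable abbrev preCore : PreInnerProductSpace.Core ℂ (Pre Em ω) where
  inner := ip
  conj_inner_symm x y := by
    refine tendsto_nhds_unique ?_ (ip_spec x y)
    simpa [Function.comp_def] using (Complex.continuous_conj.tendsto _).comp (ip_spec y x)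
  re_inner_nonneg x :=
    ge_of_tendsto' ((Complex.continuous_re.tendsto _).comp (ip_spec x x))
      (fun m => inner_self_nonneg (𝕜 := ℂ))
  add_left x y z := by
    refine tendsto_nhds_unique (ip_spec _ _) ?_
    simpa only [← inner_add_left] using! (ip_spec x z).add (ip_spec y z)
  smul_left x y r := by
    refine tendsto_nhds_unique (ip_spec _ _) ?_
    simpa only [← inner_smul_left] using! (ip_spec x y).const_mul ((starRingEnd ℂ) r)

noncomputable instance : SeminormedAddCommGroup (Pre Em ω) :=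
  InnerProductSpace.Core.toSeminormedAddCommGroup (c := preCore)
noncomputable instance : InnerProductSpace ℂ (Pre Em ω) := InnerProductSpace.ofCore preCore

lemma norm_sq_tendsto (x : Pre Em ω) : Tendsto (fun m => ‖x.val m‖ ^ 2) ω (𝓝 (‖x‖ ^ 2)) := by
  have := (Complex.continuous_re.tendsto _).comp (ip_spec x x)
  have e : (ip x x).re = ‖x‖ ^ 2 := inner_self_eq_norm_sq (𝕜 := ℂ) x
  simpa only [Function.comp_def, re_inner_self, e] using this

lemma norm_tendsto (x : Pre Em ω) : Tendsto (fun m => ‖x.val m‖) ω (𝓝 ‖x‖) := by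
  simpa using (norm_sq_tendsto x).sqrt

noncomputable def opPre (T : ∀ m, Em m →L[ℂ] Em m) (h : ∃ C, ∀ m, ‖T m‖ ≤ C) :
    Pre Em ω →L[ℂ] Pre Em ω :=
  LinearMap.mkContinuousOfExistsBound
    { toFun := fun x => (⟨fun m => T m (x.val m), by
        obtain ⟨C, hC⟩ := h
        obtain ⟨C', hC'⟩ := x.bdd
        exact ⟨C * C', fun m => (T m).le_of_opNorm_le_of_le (hC m) (hC' m)⟩⟩ : BSeq Em)
      map_add' := fun x y => Subtype.ext (funext fun m => map_add (T m) _ _)
      map_smul' := fun c x => Subtype.ext (funext fun m => map_smul (T m) _ _) } (by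
    obtain ⟨C, hC⟩ := h
    exact ⟨C, fun x => le_of_tendsto_of_tendsto' (norm_tendsto _) ((norm_tendsto x).const_mul C)
      (fun m => (T m).le_of_opNorm_le (hC m) _)⟩)

lemma opPre_val (T : ∀ m, Em m →L[ℂ] Em m) (h : ∃ C, ∀ m, ‖T m‖ ≤ C) (x : Pre Em ω) (m : ℕ) :
    (opPre T h x).val m = T m (x.val m) := rfl

noncomputable def op (T : ∀ m, Em m →L[ℂ] Em m) (h : ∃ C, ∀ m, ‖T m‖ ≤ C) :
    SeparationQuotient (Pre Em ω) →L[ℂ] SeparationQuotient (Pre Em ω) :=
  SeparationQuotient.liftCLM ((SeparationQuotient.mkCLM ℂ _).comp (opPre T h))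
    (fun _ _ hxy => SeparationQuotient.mk_eq_mk.2 (hxy.map (opPre T h).continuous))

lemma op_mk (T : ∀ m, Em m →L[ℂ] Em m) (h : ∃ C, ∀ m, ‖T m‖ ≤ C) (x : Pre Em ω) :
    op T h (SeparationQuotient.mk x) = SeparationQuotient.mk (opPre T h x) := rfl

lemma mk_eq_of (x y z : Pre Em ω) (T : ∀ m, Em m →L[ℂ] Em m)
    (hT : Tendsto (fun m => ‖T m‖) ω (𝓝 0)) (h : ∀ m, x.val m - y.val m = T m (z.val m)) :
    SeparationQuotient.mk x = SeparationQuotient.mk y := by
  rw [SeparationQuotient.mk_eq_mk, Metric.inseparable_iff, dist_eq_norm]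
  refine le_antisymm ?_ (norm_nonneg _)
  refine le_of_tendsto_of_tendsto' (norm_tendsto (x - y))
    (by simpa using hT.mul (norm_tendsto z)) (fun m => ?_)
  show ‖x.val m - y.val m‖ ≤ _
  rw [h]
  exact (T m).le_opNorm _

theorem ultra_improve (U : ∀ m, G0 → Em m →L[ℂ] Em m) (hb : ∀ g, ∃ C, ∀ m, ‖U m g‖ ≤ C)
    (hmul : ∀ g h, Tendsto (fun m => ‖U m (g * h) - U m g * U m h‖) ω (𝓝 0))
    (hone : Tendsto (fun m => ‖U m 1 - 1‖) ω (𝓝 0))
    (hiso : ∀ g, ∃ ε : ℕ → ℝ, Tendsto ε ω (𝓝 0) ∧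
      ∀ m x, |‖U m g x‖ ^ 2 - ‖x‖ ^ 2| ≤ ε m * ‖x‖ ^ 2)
    (x : ∀ m, Em m) (hx : ∀ m, ‖x m‖ ≤ 1)
    (hx1 : ∀ᶠ m in ω, ‖x m‖ = 1 ∧ EN (fun i t => U m (gen i t)) (x m) ≤ 1 / 4) {η : ℝ}
    (hη : 0 < η) : ∃ y : ∀ m, Em m, ∀ᶠ m in ω,
      EN (fun i t => U m (gen i t)) (y m) ≤ η ∧ 1 / 2 ≤ ‖y m‖ ^ 2 := by
  let Φ : G0 →* (SeparationQuotient (Pre Em ω) →L[ℂ] SeparationQuotient (Pre Em ω)) :=
    { toFun := fun g => op (fun m => U m g) (hb g)
      map_one' := by
        ext z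
        obtain ⟨z, rfl⟩ := SeparationQuotient.surjective_mk z
        exact mk_eq_of _ _ z _ hone (fun m => rfl)
      map_mul' := fun g h => by
        ext z
        obtain ⟨z, rfl⟩ := SeparationQuotient.surjective_mk z
        exact mk_eq_of _ (opPre _ (hb g) (opPre _ (hb h) z)) z _ (hmul g h) (fun m => rfl) }
  have hΦ : ∀ g z, ‖Φ g z‖ = ‖z‖ := by
    intro g z
    obtain ⟨z, rfl⟩ := SeparationQuotient.surjective_mk z
    obtain ⟨ε, h1, h2⟩ := hiso g
    show ‖opPre (fun m => U m g) (hb g) z‖ = ‖z‖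
    rw [← sq_eq_sq₀ (norm_nonneg _) (norm_nonneg _), ← sub_eq_zero, ← abs_nonpos_iff]
    exact le_of_tendsto_of_tendsto' ((norm_sq_tendsto _).sub (norm_sq_tendsto z)).abs
      (by simpa using h1.mul (norm_sq_tendsto z)) (fun m => h2 m _)
  have hEN : ∀ z : Pre Em ω, Tendsto (fun m => EN (fun i t => U m (gen i t)) (z.val m)) ω
      (𝓝 (EN (fun i t => Φ (gen i t)) (SeparationQuotient.mk z))) := by
    intro z
    refine tendsto_finsetSum _ (fun i _ => tendsto_finsetSum _ (fun t _ => ?_))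
    exact norm_sq_tendsto (z - opPre (fun m => U m (gen i t)) (hb _) z)
  let x0 : Pre Em ω := (⟨x, 1, hx⟩ : BSeq Em)
  obtain ⟨y, h1, h2⟩ := (gapData_of Φ hΦ).improve (SeparationQuotient.mk x0) (half_pos hη)
  obtain ⟨y, rfl⟩ := SeparationQuotient.surjective_mk y
  have a1 : ‖x0‖ = 1 := tendsto_nhds_unique (norm_tendsto x0)
    (tendsto_const_nhds.congr' (hx1.mono (fun m hm => hm.1.symm)))
  have a2 := le_of_tendsto (hEN x0) (hx1.mono (fun m hm => hm.2))
  rw [SeparationQuotient.norm_mk, SeparationQuotient.norm_mk, a1] at h2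
  refine ⟨y.val, Eventually.and ?_ ?_⟩
  · exact (hEN y).eventually_le_const (by linarith)
  · exact (norm_sq_tendsto y).eventually_const_le (by linarith)

end Vale.Agent.P083
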